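import Vale.Agent.P125.Dich.Iter

set_option linter.unusedSectionVars false
set_option linter.unusedVariables false

/-!
# P125, polynomial rate: operator calculus for a reversible stochastic matrix

`op P g y = ∑ z, P y z * g z`, `ip μ g h = ∑ y, μ y * g y * h y`.  Positivity, monotonicity,
constants, self-adjointness, stationarity, Jensen, contraction in `L_2`, Cauchy-Schwarz, powers.
-/

namespace Vale.Agent.P125.Poly75

open scoped BigOperators
open Vale.Agent.P125.Dich

variable {S : Type} [Fintype S]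

/-- the action of a matrix on functions -/
def op (P : Matrix S S ℝ) (g : S → ℝ) (y : S) : ℝ := ∑ z, P y z * g z

/-- the weighted inner product -/
def ip (μ : S → ℝ) (g h : S → ℝ) : ℝ := ∑ y, μ y * g y * h y

lemma op_nonneg {μ : S → ℝ} {P : Matrix S S ℝ} (hc : IsChain μ P) {g : S → ℝ}
    (hg : ∀ z, 0 ≤ g z) (y : S) : 0 ≤ op P g y :=
  Finset.sum_nonneg fun z _ => mul_nonneg (hc.2.2.1 y z) (hg z)

lemma op_mono {μ : S → ℝ} {P : Matrix S S ℝ} (hc : IsChain μ P) {g h : S → ℝ}
    (hg : ∀ z, g z ≤ h z) (y : S) : op P g y ≤ op P h y :=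
  Finset.sum_le_sum fun z _ => mul_le_mul_of_nonneg_left (hg z) (hc.2.2.1 y z)

lemma op_const {μ : S → ℝ} {P : Matrix S S ℝ} (hc : IsChain μ P) (c : ℝ) (y : S) :
    op P (fun _ => c) y = c := by
  unfold op
  rw [← Finset.sum_mul, hc.2.2.2.1 y, one_mul]

lemma op_add (P : Matrix S S ℝ) (g h : S → ℝ) (y : S) :
    op P (fun z => g z + h z) y = op P g y + op P h y := by
  unfold op
  rw [← Finset.sum_add_distrib]
  exact Finset.sum_congr rfl fun z _ => by ring

lemma op_sub (P : Matrix S S ℝ) (g h : S → ℝ) (y : S) :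
    op P (fun z => g z - h z) y = op P g y - op P h y := by
  unfold op
  rw [← Finset.sum_sub_distrib]
  exact Finset.sum_congr rfl fun z _ => by ring

lemma op_smul (P : Matrix S S ℝ) (c : ℝ) (g : S → ℝ) (y : S) :
    op P (fun z => c * g z) y = c * op P g y := by
  unfold op
  rw [Finset.mul_sum]
  exact Finset.sum_congr rfl fun z _ => by ring

lemma op_sum {ι : Type} (s : Finset ι) (P : Matrix S S ℝ) (g : ι → S → ℝ) (y : S) :
    op P (fun z => ∑ i ∈ s, g i z) y = ∑ i ∈ s, op P (g i) y := by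
  unfold op
  rw [Finset.sum_comm]
  exact Finset.sum_congr rfl fun z _ => by rw [Finset.mul_sum]

lemma abs_op_le {μ : S → ℝ} {P : Matrix S S ℝ} (hc : IsChain μ P) (g : S → ℝ) (y : S) :
    |op P g y| ≤ op P (fun z => |g z|) y := by
  unfold op
  refine (Finset.abs_sum_le_sum_abs _ _).trans (Finset.sum_le_sum fun z _ => ?_)
  rw [abs_mul, abs_of_nonneg (hc.2.2.1 y z)]

/-- self-adjointness -/
lemma ip_op {μ : S → ℝ} {P : Matrix S S ℝ} (hc : IsChain μ P) (g h : S → ℝ) :
    ip μ g (op P h) = ip μ (op P g) h := by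
  unfold ip op
  simp only [Finset.mul_sum, Finset.sum_mul]
  rw [Finset.sum_comm]
  refine Finset.sum_congr rfl fun z _ => Finset.sum_congr rfl fun y _ => ?_
  have := hc.2.2.2.2 y z
  calc μ y * g y * (P y z * h z) = (μ y * P y z) * g y * h z := by ring
    _ = (μ z * P z y) * g y * h z := by rw [this]
    _ = μ z * (P z y * g y) * h z := by ring

/-- stationarity -/
lemma sum_op {μ : S → ℝ} {P : Matrix S S ℝ} (hc : IsChain μ P) (g : S → ℝ) :
    ∑ y, μ y * op P g y = ∑ y, μ y * g y := by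
  have h := ip_op hc (fun _ => 1) g
  unfold ip at h
  simp only [mul_one] at h
  rw [h]
  refine Finset.sum_congr rfl fun y _ => ?_
  rw [op_const hc]
  ring

/-- Jensen (Cauchy-Schwarz for one row) -/
lemma op_sq_le {μ : S → ℝ} {P : Matrix S S ℝ} (hc : IsChain μ P) (g : S → ℝ) (y : S) :
    op P g y ^ 2 ≤ op P (fun z => g z ^ 2) y := by
  have h0 : 0 ≤ op P (fun z => (g z - op P g y) ^ 2) y :=
    op_nonneg hc (fun z => sq_nonneg _) y
  have e : op P (fun z => (g z - op P g y) ^ 2) y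
      = op P (fun z => g z ^ 2) y - op P g y ^ 2 := by
    have e1 : (fun z => (g z - op P g y) ^ 2)
        = fun z => (g z ^ 2 - (2 * op P g y) * g z) + op P g y ^ 2 := by
      funext z
      ring
    rw [e1, op_add, op_sub, op_smul, op_const hc]
    ring
  linarith

/-- product form of Cauchy-Schwarz for one row -/
lemma op_mul_sq_le {μ : S → ℝ} {P : Matrix S S ℝ} (hc : IsChain μ P) (g h : S → ℝ) (y : S) :
    op P (fun z => g z * h z) y ^ 2 ≤ op P (fun z => g z ^ 2) y * op P (fun z => h z ^ 2) y := by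
  unfold op
  have := Finset.sum_mul_sq_le_sq_mul_sq Finset.univ (fun z => Real.sqrt (P y z) * g z)
    (fun z => Real.sqrt (P y z) * h z)
  have e1 : ∀ z, Real.sqrt (P y z) * g z * (Real.sqrt (P y z) * h z) = P y z * (g z * h z) := by
    intro z
    have := Real.mul_self_sqrt (hc.2.2.1 y z)
    calc Real.sqrt (P y z) * g z * (Real.sqrt (P y z) * h z)
        = (Real.sqrt (P y z) * Real.sqrt (P y z)) * (g z * h z) := by ring
      _ = _ := by rw [this]
  have e2 : ∀ (k : S → ℝ) z, (Real.sqrt (P y z) * k z) ^ 2 = P y z * k z ^ 2 := by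
    intro k z
    rw [mul_pow, Real.sq_sqrt (hc.2.2.1 y z)]
  simp only [e1, e2] at this
  exact this

lemma ip_nonneg {μ : S → ℝ} {P : Matrix S S ℝ} (hc : IsChain μ P) {g h : S → ℝ}
    (hg : ∀ z, 0 ≤ g z) (hh : ∀ z, 0 ≤ h z) : 0 ≤ ip μ g h :=
  Finset.sum_nonneg fun y _ => mul_nonneg (mul_nonneg (hc.1 y) (hg y)) (hh y)

lemma ip_self_nonneg {μ : S → ℝ} {P : Matrix S S ℝ} (hc : IsChain μ P) (g : S → ℝ) :
    0 ≤ ip μ g g :=
  Finset.sum_nonneg fun y _ => by
    have := mul_nonneg (hc.1 y) (mul_self_nonneg (g y))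
    calc (0 : ℝ) ≤ μ y * (g y * g y) := this
      _ = μ y * g y * g y := by ring

lemma ip_mono_right {μ : S → ℝ} {P : Matrix S S ℝ} (hc : IsChain μ P) {g h k : S → ℝ}
    (hg : ∀ z, 0 ≤ g z) (hh : ∀ z, h z ≤ k z) : ip μ g h ≤ ip μ g k :=
  Finset.sum_le_sum fun y _ => mul_le_mul_of_nonneg_left (hh y) (mul_nonneg (hc.1 y) (hg y))

lemma ip_comm (μ g h : S → ℝ) : ip μ g h = ip μ h g :=
  Finset.sum_congr rfl fun y _ => by ring

/-- contraction in `L_2` -/
lemma ip_op_op_le {μ : S → ℝ} {P : Matrix S S ℝ} (hc : IsChain μ P) (g : S → ℝ) :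
    ip μ (op P g) (op P g) ≤ ip μ g g := by
  have h1 : ip μ (op P g) (op P g) ≤ ∑ y, μ y * op P (fun z => g z ^ 2) y := by
    unfold ip
    refine Finset.sum_le_sum fun y _ => ?_
    have := mul_le_mul_of_nonneg_left (op_sq_le hc g y) (hc.1 y)
    calc μ y * op P g y * op P g y = μ y * op P g y ^ 2 := by ring
      _ ≤ _ := this
  rw [sum_op hc] at h1
  refine h1.trans (le_of_eq ?_)
  unfold ip
  exact Finset.sum_congr rfl fun y _ => by ring

/-- Cauchy-Schwarz -/
lemma ip_sq_le {μ : S → ℝ} {P : Matrix S S ℝ} (hc : IsChain μ P) (g h : S → ℝ) :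
    ip μ g h ^ 2 ≤ ip μ g g * ip μ h h := by
  unfold ip
  have := Finset.sum_mul_sq_le_sq_mul_sq Finset.univ (fun z => Real.sqrt (μ z) * g z)
    (fun z => Real.sqrt (μ z) * h z)
  have e1 : ∀ z, Real.sqrt (μ z) * g z * (Real.sqrt (μ z) * h z) = μ z * g z * h z := by
    intro z
    have := Real.mul_self_sqrt (hc.1 z)
    calc Real.sqrt (μ z) * g z * (Real.sqrt (μ z) * h z)
        = (Real.sqrt (μ z) * Real.sqrt (μ z)) * g z * h z := by ring
      _ = _ := by rw [this]
  have e2 : ∀ (k : S → ℝ) z, (Real.sqrt (μ z) * k z) ^ 2 = μ z * k z * k z := by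
    intro k z
    rw [mul_pow, Real.sq_sqrt (hc.1 z)]
    ring
  simp only [e1, e2] at this
  exact this

/-- Cauchy-Schwarz with square roots -/
lemma ip_le_sqrt {μ : S → ℝ} {P : Matrix S S ℝ} (hc : IsChain μ P) (g h : S → ℝ) :
    ip μ g h ≤ Real.sqrt (ip μ g g) * Real.sqrt (ip μ h h) := by
  rw [← Real.sqrt_mul (ip_self_nonneg hc g)]
  exact Real.le_sqrt_of_sq_le (ip_sq_le hc g h)

variable [DecidableEq S]

lemma op_one (g : S → ℝ) (y : S) : op (1 : Matrix S S ℝ) g y = g y := by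
  unfold op
  simp [Matrix.one_apply]

lemma op_mul (A B : Matrix S S ℝ) (g : S → ℝ) (y : S) :
    op (A * B) g y = op A (op B g) y := by
  unfold op
  simp only [Matrix.mul_apply, Finset.sum_mul, Finset.mul_sum]
  rw [Finset.sum_comm]
  exact Finset.sum_congr rfl fun z _ => Finset.sum_congr rfl fun w _ => by ring

lemma op_pow_add (P : Matrix S S ℝ) (a b : ℕ) (g : S → ℝ) (y : S) :
    op (P ^ (a + b)) g y = op (P ^ a) (op (P ^ b) g) y := by
  rw [pow_add, op_mul]

lemma op_pow_succ (P : Matrix S S ℝ) (a : ℕ) (g : S → ℝ) (y : S) :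
    op (P ^ (a + 1)) g y = op (P ^ a) (op P g) y := by
  rw [pow_succ, op_mul]

lemma op_pow_succ' (P : Matrix S S ℝ) (a : ℕ) (g : S → ℝ) (y : S) :
    op (P ^ (a + 1)) g y = op P (op (P ^ a) g) y := by
  rw [pow_succ', op_mul]

/-- the carre du champ identity -/
lemma gamma_eq {μ : S → ℝ} {P : Matrix S S ℝ} (hc : IsChain μ P) (v : S → ℝ) (a : S) :
    ∑ b, P a b * (v b - v a) ^ 2
      = op P (fun z => v z ^ 2) a - v a ^ 2 - 2 * v a * (op P v a - v a) := by
  have e1 : ∀ b, P a b * (v b - v a) ^ 2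
      = P a b * v b ^ 2 - (2 * v a) * (P a b * v b) + v a ^ 2 * P a b := by
    intro b
    ring
  simp only [e1]
  rw [Finset.sum_add_distrib, Finset.sum_sub_distrib, ← Finset.mul_sum, ← Finset.mul_sum,
    hc.2.2.2.1 a]
  unfold op
  ring

/-- the Dirichlet form identity -/
lemma dirichlet {μ : S → ℝ} {P : Matrix S S ℝ} (hc : IsChain μ P) (g h : S → ℝ) :
    ip μ g (fun y => op P h y - h y)
      = -(1 / 2) * ∑ a, ∑ b, μ a * P a b * ((g b - g a) * (h b - h a)) := by
  have hA : ∑ a, ∑ b, μ a * P a b * (g a * h a) = ip μ g h := by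
    unfold ip
    refine Finset.sum_congr rfl fun a _ => ?_
    calc ∑ b, μ a * P a b * (g a * h a) = (∑ b, P a b) * (μ a * g a * h a) := by
          rw [Finset.sum_mul]
          exact Finset.sum_congr rfl fun b _ => by ring
      _ = _ := by rw [hc.2.2.2.1 a, one_mul]
  have hB : ∑ a, ∑ b, μ a * P a b * (g b * h b) = ip μ g h := by
    rw [Finset.sum_comm, ← hA]
    refine Finset.sum_congr rfl fun b _ => Finset.sum_congr rfl fun a _ => ?_
    rw [hc.2.2.2.2 a b]
  have hC : ∑ a, ∑ b, μ a * P a b * (g a * h b) = ip μ g (op P h) := by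
    unfold ip op
    refine Finset.sum_congr rfl fun a _ => ?_
    rw [Finset.mul_sum]
    exact Finset.sum_congr rfl fun b _ => by ring
  have hD : ∑ a, ∑ b, μ a * P a b * (g b * h a) = ip μ g (op P h) := by
    rw [Finset.sum_comm, ← hC]
    refine Finset.sum_congr rfl fun b _ => Finset.sum_congr rfl fun a _ => ?_
    rw [hc.2.2.2.2 a b]
  have hE : ∑ a, ∑ b, μ a * P a b * ((g b - g a) * (h b - h a))
      = ∑ a, ∑ b, μ a * P a b * (g b * h b) - ∑ a, ∑ b, μ a * P a b * (g b * h a)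
        - ∑ a, ∑ b, μ a * P a b * (g a * h b) + ∑ a, ∑ b, μ a * P a b * (g a * h a) := by
    simp only [← Finset.sum_sub_distrib, ← Finset.sum_add_distrib]
    exact Finset.sum_congr rfl fun a _ => Finset.sum_congr rfl fun b _ => by ring
  have hF : ip μ g (fun y => op P h y - h y) = ip μ g (op P h) - ip μ g h := by
    unfold ip
    rw [← Finset.sum_sub_distrib]
    exact Finset.sum_congr rfl fun y _ => by ring
  rw [hE, hA, hB, hC, hD, hF]
  ring

end Vale.Agent.P125.Poly75
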