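import Vale.Agent.P125.P58.Defs58

set_option linter.unusedSectionVars false
set_option linter.unusedVariables false

/-! # P125 Poly: the average of the uniform energy bound `BB` (Step 7, average) -/

namespace Vale.Agent.P125.Poly

open scoped BigOperators
open Vale.Agent.P125.Dich

theorem stBB_38 (hs : StSmall) : StBB := by
  intro S _ _ μ P hP hL n f τ s
  obtain ⟨_, _, hlb0, _, _, hlbU, hU0, _, _, _⟩ := hs S μ P hP hL n f
  -- calculus of av
  have avadd : ∀ g h : S → ℝ, av μ (fun x => g x + h x) = av μ g + av μ h := by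
    intro g h
    unfold av
    rw [← Finset.sum_add_distrib]
    refine Finset.sum_congr rfl fun x _ => ?_
    ring
  have avsmul : ∀ (c : ℝ) (g : S → ℝ), av μ (fun x => c * g x) = c * av μ g := by
    intro c g
    unfold av
    rw [Finset.mul_sum]
    refine Finset.sum_congr rfl fun x _ => ?_
    ring
  have avsum : ∀ (t : Finset ℕ) (g : ℕ → S → ℝ),
      av μ (fun x => ∑ i ∈ t, g i x) = ∑ i ∈ t, av μ (g i) := by
    intro t g
    unfold av
    simp only [Finset.mul_sum]
    rw [Finset.sum_comm]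
  have opnn : ∀ (k : ℕ) (g : S → ℝ), (∀ y, 0 ≤ g y) → ∀ x, 0 ≤ op P k g x := by
    intro k g hg x
    have := hL.op_mono k (fun _ => 0) g hg x
    rwa [hL.op_const k 0 x] at this
  have contr : ∀ (k : ℕ) (g : S → ℝ),
      av μ (fun x => op P k g x ^ 2) ≤ av μ (fun x => g x ^ 2) := by
    intro k g
    rw [← hL.av_op k (fun x => g x ^ 2)]
    exact hL.av_mono _ _ (fun x => hL.sq_op k g x)
  set L := LL P f s with hLdef
  set A := AA P f τ s with hAdef
  have hL0 : ∀ y, 0 ≤ L y := fun y => opnn s _ hlb0 y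
  have hA0 : ∀ y, 0 ≤ A y := fun y => Finset.sum_nonneg fun i _ => opnn i _ hL0 y
  have hLU : av μ (fun x => L x ^ 2) ≤ U μ P f := le_trans (contr s (lbar P f)) hlbU
  have hPL0 : ∀ y, 0 ≤ op P τ L y := fun y => opnn τ _ hL0 y
  have hPLU : av μ (fun x => op P τ L x ^ 2) ≤ U μ P f := le_trans (contr τ L) hLU
  -- the second moment of A
  have hAU : av μ (fun x => A x ^ 2) ≤ (τ : ℝ) ^ 2 * U μ P f := by
    have h1 : ∀ x, A x ^ 2 ≤ (τ : ℝ) * ∑ i ∈ Finset.range τ, op P i L x ^ 2 := by
      intro x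
      have hcs := sq_sum_le_card_mul_sum_sq (s := Finset.range τ) (f := fun i => op P i L x)
      rw [Finset.card_range] at hcs
      exact hcs
    calc av μ (fun x => A x ^ 2)
        ≤ av μ (fun x => (τ : ℝ) * ∑ i ∈ Finset.range τ, op P i L x ^ 2) :=
          hL.av_mono _ _ h1
      _ = (τ : ℝ) * ∑ i ∈ Finset.range τ, av μ (fun x => op P i L x ^ 2) := by
          rw [avsmul, avsum]
      _ ≤ (τ : ℝ) * ∑ i ∈ Finset.range τ, U μ P f := by
          apply mul_le_mul_of_nonneg_left _ (Nat.cast_nonneg τ)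
          exact Finset.sum_le_sum fun i _ => le_trans (contr i L) hLU
      _ = (τ : ℝ) ^ 2 * U μ P f := by
          rw [Finset.sum_const, Finset.card_range, nsmul_eq_mul]
          ring
  -- cross terms
  have cross : ∀ b : S → ℝ, 2 * (τ : ℝ) * av μ (fun x => A x * b x)
      ≤ av μ (fun x => A x ^ 2) + (τ : ℝ) ^ 2 * av μ (fun x => b x ^ 2) := by
    intro b
    rw [← avsmul, ← avsmul, ← avadd]
    apply hL.av_mono
    intro x
    nlinarith [sq_nonneg (A x - (τ : ℝ) * b x)]
  constructor
  · intro y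
    unfold BB
    have h1 : 0 ≤ op P (s + τ) (fun z => AA P f τ s z ^ 2) y := opnn _ _ (fun z => sq_nonneg _) y
    have h2 : 0 ≤ ∑ i ∈ Finset.range τ,
        op P (i + s) (fun z => AA P f τ s z * (op P τ (LL P f s) z + LL P f s z)) y :=
      Finset.sum_nonneg fun i _ => opnn _ _
        (fun z => mul_nonneg (hA0 z) (add_nonneg (hPL0 z) (hL0 z))) y
    linarith
  · have e1 : av μ (BB P f τ s) = av μ (fun x => A x ^ 2)
        + 2 * ((τ : ℝ) * av μ (fun z => A z * (op P τ L z + L z))) := by
      have : BB P f τ s = fun y => op P (s + τ) (fun z => A z ^ 2) y +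
          2 * ∑ i ∈ Finset.range τ, op P (i + s) (fun z => A z * (op P τ L z + L z)) y := by
        funext y
        rfl
      rw [this, avadd, avsmul, avsum]
      have e2 : av μ (fun y => op P (s + τ) (fun z => A z ^ 2) y) = av μ (fun x => A x ^ 2) :=
        hL.av_op (s + τ) (fun z => A z ^ 2)
      have e3 : ∀ i ∈ Finset.range τ,
          av μ (fun y => op P (i + s) (fun z => A z * (op P τ L z + L z)) y)
            = av μ (fun z => A z * (op P τ L z + L z)) :=
        fun i _ => hL.av_op (i + s) (fun z => A z * (op P τ L z + L z))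
      rw [e2, Finset.sum_congr rfl e3, Finset.sum_const, Finset.card_range, nsmul_eq_mul]
    have e4 : av μ (fun z => A z * (op P τ L z + L z))
        = av μ (fun z => A z * op P τ L z) + av μ (fun z => A z * L z) := by
      rw [← avadd]
      congr 1
      funext z
      ring
    have c1 := cross (fun z => op P τ L z)
    have c2 := cross L
    have t1 : (τ : ℝ) ^ 2 * av μ (fun x => op P τ L x ^ 2) ≤ (τ : ℝ) ^ 2 * U μ P f :=
      mul_le_mul_of_nonneg_left hPLU (sq_nonneg _)
    have t2 : (τ : ℝ) ^ 2 * av μ (fun x => L x ^ 2) ≤ (τ : ℝ) ^ 2 * U μ P f :=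
      mul_le_mul_of_nonneg_left hLU (sq_nonneg _)
    rw [e1, e4]
    nlinarith

end Vale.Agent.P125.Poly
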