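import Vale.Agent.P125.P58.Defs58

set_option linter.unusedSectionVars false
set_option linter.unusedVariables false

namespace Vale.Agent.P125.Poly

open scoped BigOperators
open Vale.Agent.P125.Dich

theorem stBack_88 (hs : StSmall) : StBack := by
  intro S _ _ μ P hC hL n f τ s
  have hrev : ∀ a b, μ a * P a b = μ b * P b a := hC.2.2.2.2
  have key : ∀ k : Fin n,
      ∑ a, ∑ b, μ a * P a b * (NU P f τ s k a * |UU P f τ s k a - UU P f τ s k b|)
      = av μ (fun y => om P f k y * ∑ i ∈ Finset.range τ, op P (i + s) (ek P f τ s k) y) := by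
    intro k
    calc ∑ a, ∑ b, μ a * P a b * (NU P f τ s k a * |UU P f τ s k a - UU P f τ s k b|)
        = ∑ a, ∑ i ∈ Finset.range τ, μ a * (op P (i + s) (om P f k) a * ek P f τ s k a) := by
          refine Finset.sum_congr rfl (fun a _ => ?_)
          have h1 : ∑ b, μ a * P a b * (NU P f τ s k a * |UU P f τ s k a - UU P f τ s k b|)
              = μ a * (NU P f τ s k a * ek P f τ s k a) := by
            unfold ek
            rw [Finset.mul_sum, Finset.mul_sum]
            refine Finset.sum_congr rfl (fun b _ => by ring)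
          rw [h1]
          unfold NU
          rw [Finset.sum_mul, Finset.mul_sum]
      _ = ∑ i ∈ Finset.range τ, av μ (fun a => op P (i + s) (om P f k) a * ek P f τ s k a) := by
          rw [Finset.sum_comm]
          rfl
      _ = ∑ i ∈ Finset.range τ, av μ (fun a => om P f k a * op P (i + s) (ek P f τ s k) a) := by
          refine Finset.sum_congr rfl (fun i _ => ?_)
          exact (hL.av_adj (i + s) (om P f k) (ek P f τ s k)).symm
      _ = av μ (fun y => om P f k y * ∑ i ∈ Finset.range τ, op P (i + s) (ek P f τ s k) y) := by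
          unfold av
          rw [Finset.sum_comm]
          refine Finset.sum_congr rfl (fun a _ => ?_)
          simp only []
          rw [Finset.mul_sum, Finset.mul_sum]
  have flip : ∀ k : Fin n,
      ∑ a, ∑ b, μ a * P a b * (NU P f τ s k b * |UU P f τ s k a - UU P f τ s k b|)
      = ∑ a, ∑ b, μ a * P a b * (NU P f τ s k a * |UU P f τ s k a - UU P f τ s k b|) := by
    intro k
    rw [Finset.sum_comm]
    refine Finset.sum_congr rfl (fun a _ => Finset.sum_congr rfl (fun b _ => ?_))
    rw [hrev b a, abs_sub_comm]
  have e0 : ∑ a, ∑ b, μ a * P a b *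
        ∑ k, (NU P f τ s k a + NU P f τ s k b) * |UU P f τ s k a - UU P f τ s k b|
      = ∑ k, ∑ a, ∑ b, μ a * P a b *
        ((NU P f τ s k a + NU P f τ s k b) * |UU P f τ s k a - UU P f τ s k b|) := by
    calc _ = ∑ a, ∑ k, ∑ b, μ a * P a b *
        ((NU P f τ s k a + NU P f τ s k b) * |UU P f τ s k a - UU P f τ s k b|) := by
          refine Finset.sum_congr rfl (fun a _ => ?_)
          simp only [Finset.mul_sum]
          rw [Finset.sum_comm]
      _ = _ := Finset.sum_comm
  rw [e0, Finset.mul_sum]
  refine Finset.sum_congr rfl (fun k _ => ?_)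
  rw [two_mul, ← key k]
  nth_rewrite 2 [← flip k]
  rw [← Finset.sum_add_distrib]
  refine Finset.sum_congr rfl (fun a _ => ?_)
  rw [← Finset.sum_add_distrib]
  refine Finset.sum_congr rfl (fun b _ => by ring)

end Vale.Agent.P125.Poly
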