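import Vale.Agent.P125.P58.Defs58

set_option linter.unusedSectionVars false
set_option linter.unusedVariables false

/-!
# P125 Poly: the block step (Step 3), subtask Blk
-/

namespace Vale.Agent.P125.Poly

open scoped BigOperators
open Vale.Agent.P125.Dich

section

variable {S : Type} [Fintype S] [DecidableEq S]

lemma av_sum_89 {ι : Type*} (μ : S → ℝ) (s : Finset ι) (g : ι → S → ℝ) :
    av μ (fun x => ∑ i ∈ s, g i x) = ∑ i ∈ s, av μ (g i) := by
  unfold av
  simp only [Finset.mul_sum]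
  rw [Finset.sum_comm]

lemma av_add_89 (μ : S → ℝ) (g h : S → ℝ) :
    av μ (fun x => g x + h x) = av μ g + av μ h := by
  unfold av
  simp only [mul_add]
  rw [Finset.sum_add_distrib]

lemma av_smul_89 (μ : S → ℝ) (c : ℝ) (g : S → ℝ) :
    av μ (fun x => c * g x) = c * av μ g := by
  unfold av
  rw [Finset.mul_sum]
  refine Finset.sum_congr rfl fun x _ => ?_
  ring

lemma op_pow_89 (P : Matrix S S ℝ) (τ j : ℕ) (g : S → ℝ) :
    op (P ^ τ) j g = op P (τ * j) g := by
  unfold op
  simp only [pow_mul]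

lemma op_nonneg_89 {μ : S → ℝ} {P : Matrix S S ℝ} (hL : Lib μ P) (k : ℕ) (g : S → ℝ)
    (hg : ∀ y, 0 ≤ g y) (x : S) : 0 ≤ op P k g x := by
  unfold op
  exact Finset.sum_nonneg fun y _ => mul_nonneg (hL.pw_nonneg k x y) (hg y)

end

theorem stBlk_89 (hlib : StLib) (hs : StSmall) (h2 : StTriv2) (h3 : StSqrt) : StBlk := by
  intro S _ _ μ P hc hL n f τ J
  obtain ⟨om0, omsum, lb0, l20, avl2, avlb, U0, _, _, _⟩ := hs S μ P hc hL n f
  have hcτ : IsChain μ (P ^ τ) := isChain_pow hc τ
  have hLτ : Lib μ (P ^ τ) := hlib S μ (P ^ τ) hcτ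
  obtain ⟨V, hV⟩ : ∃ V : S → ℝ,
      V = fun z => (τ : ℝ) * ∑ i ∈ Finset.range τ, op P i (l2 P f) z := ⟨_, rfl⟩
  obtain ⟨W, hW⟩ : ∃ W : S → ℝ,
      W = fun b => ∑ j ∈ Finset.range J, op P (τ * j) V b := ⟨_, rfl⟩
  have V0 : ∀ z, 0 ≤ V z := by
    intro z
    rw [hV]
    exact mul_nonneg (Nat.cast_nonneg _)
      (Finset.sum_nonneg fun i _ => op_nonneg_89 hL i _ l20 z)
  have W0 : ∀ b, 0 ≤ W b := by
    intro b
    rw [hW]
    exact Finset.sum_nonneg fun j _ => op_nonneg_89 hL _ _ V0 b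
  have avV : av μ V = (τ : ℝ) * ((τ : ℝ) * U μ P f) := by
    rw [hV, av_smul_89, av_sum_89]
    congr 1
    have : ∀ i ∈ Finset.range τ, av μ (op P i (l2 P f)) = U μ P f := by
      intro i _
      rw [hL.av_op, avl2]
    rw [Finset.sum_congr rfl this, Finset.sum_const, Finset.card_range, nsmul_eq_mul]
  have avW : av μ W = (J : ℝ) * (τ : ℝ) ^ 2 * U μ P f := by
    rw [hW, av_sum_89]
    have : ∀ j ∈ Finset.range J, av μ (op P (τ * j) V) = (τ : ℝ) * ((τ : ℝ) * U μ P f) := by
      intro j _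
      rw [hL.av_op, avV]
    rw [Finset.sum_congr rfl this, Finset.sum_const, Finset.card_range, nsmul_eq_mul]
    ring
  have key : ∀ k b, Ak P f (τ * J) k b ≤ Real.sqrt (W b) +
      ∑ j ∈ Finset.range J, op P (τ * j) (fun z => |hh P f τ k z|) b := by
    intro k b
    have h := h3 S μ (P ^ τ) hcτ hLτ (F f k) J 0 b
    have e1 : ∑ y, ((P ^ τ) ^ J) b y * |0 + F f k y - F f k b| = Ak P f (τ * J) k b := by
      unfold Ak
      rw [pow_mul]
      simp only [zero_add]
    have e2 : ∀ z, ∑ y, (P ^ τ) z y * (F f k y - F f k z) = hh P f τ k z := by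
      intro z
      unfold hh op
      simp only [mul_sub]
      rw [Finset.sum_sub_distrib, ← Finset.sum_mul, hL.pw_sum τ z, one_mul]
    rw [e1] at h
    simp only [e2, op_pow_89] at h
    refine h.trans (add_le_add (Real.sqrt_le_sqrt ?_) le_rfl)
    have h0 : (0 : ℝ) ^ 2 = 0 := by norm_num
    rw [h0, zero_add, hW]
    refine Finset.sum_le_sum fun j _ => hL.op_mono _ _ _ (fun z => ?_) b
    rw [hV]
    exact h2 S μ P hc hL n f k τ z
  have step1 : ∀ k, Qk μ P f (τ * J) k ≤ av μ (fun b => om P f k b * Real.sqrt (W b)) +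
      ∑ j ∈ Finset.range J,
        av μ (fun b => om P f k b * op P (τ * j) (fun z => |hh P f τ k z|) b) := by
    intro k
    unfold Qk
    calc av μ (fun b => om P f k b * Ak P f (τ * J) k b)
        ≤ av μ (fun b => om P f k b * Real.sqrt (W b) + ∑ j ∈ Finset.range J,
            om P f k b * op P (τ * j) (fun z => |hh P f τ k z|) b) := by
          apply hL.av_mono
          intro b
          have := mul_le_mul_of_nonneg_left (key k b) (om0 k b)
          rw [mul_add, Finset.mul_sum] at this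
          exact this
      _ = _ := by rw [av_add_89, av_sum_89]
  have first : ∑ k, av μ (fun b => om P f k b * Real.sqrt (W b)) ≤
      Real.sqrt J * τ * U μ P f := by
    rw [← av_sum_89]
    have e : (fun x => ∑ i, om P f i x * Real.sqrt (W x))
        = fun x => lbar P f x * Real.sqrt (W x) := by
      funext x
      rw [← Finset.sum_mul, omsum]
    rw [e]
    refine (hL.av_cs _ _).trans ?_
    have e3 : (fun x => Real.sqrt (W x) ^ 2) = W := by
      funext x
      exact Real.sq_sqrt (W0 x)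
    rw [e3, avW]
    have s1 : Real.sqrt (av μ (fun x => lbar P f x ^ 2)) ≤ Real.sqrt (U μ P f) :=
      Real.sqrt_le_sqrt avlb
    have s2 : Real.sqrt ((J : ℝ) * (τ : ℝ) ^ 2 * U μ P f)
        = Real.sqrt J * τ * Real.sqrt (U μ P f) := by
      rw [Real.sqrt_mul (by positivity), Real.sqrt_mul (Nat.cast_nonneg _),
        Real.sqrt_sq (Nat.cast_nonneg _)]
    rw [s2]
    calc Real.sqrt (av μ (fun x => lbar P f x ^ 2)) * (Real.sqrt J * τ * Real.sqrt (U μ P f))
        ≤ Real.sqrt (U μ P f) * (Real.sqrt J * τ * Real.sqrt (U μ P f)) :=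
          mul_le_mul_of_nonneg_right s1 (by positivity)
      _ = Real.sqrt J * τ * (Real.sqrt (U μ P f) * Real.sqrt (U μ P f)) := by ring
      _ = Real.sqrt J * τ * U μ P f := by rw [Real.mul_self_sqrt U0]
  show ∑ k, Qk μ P f (τ * J) k ≤ _
  calc ∑ k, Qk μ P f (τ * J) k
      ≤ ∑ k, (av μ (fun b => om P f k b * Real.sqrt (W b)) +
        ∑ j ∈ Finset.range J,
          av μ (fun b => om P f k b * op P (τ * j) (fun z => |hh P f τ k z|) b)) :=
        Finset.sum_le_sum fun k _ => step1 k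
    _ = ∑ k, av μ (fun b => om P f k b * Real.sqrt (W b)) +
        ∑ j ∈ Finset.range J, Rr μ P f τ (τ * j) := by
        rw [Finset.sum_add_distrib, Finset.sum_comm]
        rfl
    _ ≤ _ := add_le_add first le_rfl

end Vale.Agent.P125.Poly
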