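import Vale.Agent.P125.P58.Defs58

set_option linter.unusedSectionVars false
set_option linter.unusedVariables false

/-!
# P125 Poly: collapse of the four point sums, statement `StCol`
-/

namespace Vale.Agent.P125.Poly

open scoped BigOperators
open Vale.Agent.P125.Dich

theorem stCol_59 (hs : StSmall) : StCol := by
  intro S _ _ μ P hP hL n f k r r'
  obtain ⟨-, -, -, -, -, -, -, hFell, hwsym, -⟩ := hs S μ P hP hL n f
  have hstat : ∀ (m : ℕ) (a : S), ∑ x, μ x * (P ^ m) x a = μ a := by
    intro m a
    have : ∀ x, μ x * (P ^ m) x a = μ a * (P ^ m) a x := fun x => hL.pw_rev m x a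
    simp only [this]
    rw [← Finset.mul_sum, hL.pw_sum, mul_one]
  have hw0 : ∀ a b, 0 ≤ w f a b k := fun a b => abs_nonneg _
  -- the three pieces
  have T1 : ∑ x, ∑ a, ∑ b, ∑ y, μ x * (P ^ r) x a * P a b * (P ^ r') b y *
      (w f a b k * |F f k y - F f k b|) = Qk μ P f r' k := by
    have e1 : ∀ x a, ∑ b, ∑ y, μ x * (P ^ r) x a * P a b * (P ^ r') b y *
        (w f a b k * |F f k y - F f k b|)
        = μ x * (P ^ r) x a * ∑ b, P a b * w f a b k * Ak P f r' k b := by
      intro x a
      rw [Finset.mul_sum]
      apply Finset.sum_congr rfl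
      intro b _
      unfold Ak
      rw [Finset.mul_sum, Finset.mul_sum]
      apply Finset.sum_congr rfl
      intro y _
      ring
    simp only [e1]
    rw [Finset.sum_comm]
    simp only [← Finset.sum_mul, hstat]
    unfold Qk av om
    simp only [Finset.mul_sum, Finset.sum_mul]
    rw [Finset.sum_comm]
    apply Finset.sum_congr rfl
    intro b _
    apply Finset.sum_congr rfl
    intro a _
    rw [hwsym a b k]
    have := hP.2.2.2.2 a b
    calc μ a * (P a b * w f b a k * Ak P f r' k b)
        = (μ a * P a b) * (w f b a k * Ak P f r' k b) := by ring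
      _ = (μ b * P b a) * (w f b a k * Ak P f r' k b) := by rw [this]
      _ = μ b * (P b a * w f b a k * Ak P f r' k b) := by ring
  have T2 : ∑ x, ∑ a, ∑ b, ∑ y, μ x * (P ^ r) x a * P a b * (P ^ r') b y *
      (w f a b k * |F f k b - F f k a|)
      = ∑ a, ∑ b, μ a * P a b * (w f a b k * |F f k b - F f k a|) := by
    have e1 : ∀ x a, ∑ b, ∑ y, μ x * (P ^ r) x a * P a b * (P ^ r') b y *
        (w f a b k * |F f k b - F f k a|)
        = μ x * (P ^ r) x a * ∑ b, P a b * (w f a b k * |F f k b - F f k a|) := by
      intro x a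
      rw [Finset.mul_sum]
      apply Finset.sum_congr rfl
      intro b _
      have : ∑ y, μ x * (P ^ r) x a * P a b * (P ^ r') b y * (w f a b k * |F f k b - F f k a|)
          = (∑ y, (P ^ r') b y) * (μ x * (P ^ r) x a * (P a b * (w f a b k * |F f k b - F f k a|))) := by
        rw [Finset.sum_mul]
        apply Finset.sum_congr rfl
        intro y _
        ring
      rw [this, hL.pw_sum, one_mul]
    simp only [e1]
    rw [Finset.sum_comm]
    simp only [← Finset.sum_mul, hstat]
    apply Finset.sum_congr rfl
    intro a _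
    rw [Finset.mul_sum]
    apply Finset.sum_congr rfl
    intro b _
    ring
  have T3 : ∑ x, ∑ a, ∑ b, ∑ y, μ x * (P ^ r) x a * P a b * (P ^ r') b y *
      (w f a b k * |F f k a - F f k x|) = Qk μ P f r k := by
    have e1 : ∀ x a, ∑ b, ∑ y, μ x * (P ^ r) x a * P a b * (P ^ r') b y *
        (w f a b k * |F f k a - F f k x|)
        = μ a * (om P f k a * ((P ^ r) a x * |F f k x - F f k a|)) := by
      intro x a
      unfold om
      rw [Finset.sum_mul, Finset.mul_sum]
      apply Finset.sum_congr rfl
      intro b _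
      have : ∑ y, μ x * (P ^ r) x a * P a b * (P ^ r') b y * (w f a b k * |F f k a - F f k x|)
          = (∑ y, (P ^ r') b y) * (μ x * (P ^ r) x a * (P a b * (w f a b k * |F f k a - F f k x|))) := by
        rw [Finset.sum_mul]
        apply Finset.sum_congr rfl
        intro y _
        ring
      rw [this, hL.pw_sum, one_mul, hL.pw_rev r x a, abs_sub_comm]
      ring
    simp only [e1]
    rw [Finset.sum_comm]
    unfold Qk av Ak
    apply Finset.sum_congr rfl
    intro a _
    rw [← Finset.mul_sum, ← Finset.mul_sum]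
  have hle : ∑ x, ∑ a, ∑ b, ∑ y, μ x * (P ^ r) x a * P a b * (P ^ r') b y *
        (w f a b k * |F f k y - F f k x|) ≤
      ∑ x, ∑ a, ∑ b, ∑ y, (μ x * (P ^ r) x a * P a b * (P ^ r') b y *
          (w f a b k * |F f k y - F f k b|)
        + μ x * (P ^ r) x a * P a b * (P ^ r') b y * (w f a b k * |F f k b - F f k a|)
        + μ x * (P ^ r) x a * P a b * (P ^ r') b y * (w f a b k * |F f k a - F f k x|)) := by
    apply Finset.sum_le_sum
    intro x _
    apply Finset.sum_le_sum
    intro a _
    apply Finset.sum_le_sum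
    intro b _
    apply Finset.sum_le_sum
    intro y _
    have hc : 0 ≤ μ x * (P ^ r) x a * P a b * (P ^ r') b y :=
      mul_nonneg (mul_nonneg (mul_nonneg (hP.1 x) (hL.pw_nonneg r x a)) (hP.2.2.1 a b))
        (hL.pw_nonneg r' b y)
    have htri : |F f k y - F f k x| ≤ |F f k y - F f k b| + |F f k b - F f k a|
        + |F f k a - F f k x| := by
      have e : F f k y - F f k x = (F f k y - F f k b) + (F f k b - F f k a)
          + (F f k a - F f k x) := by ring
      rw [e]
      exact (abs_add_le _ _).trans (add_le_add_left (abs_add_le _ _) _)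
    have h2 := mul_le_mul_of_nonneg_left (mul_le_mul_of_nonneg_left htri (hw0 a b)) hc
    calc _ ≤ _ := h2
      _ = _ := by ring
  simp only [Finset.sum_add_distrib] at hle
  rw [T1, T2, T3] at hle
  have hT2 : ∑ a, ∑ b, μ a * P a b * (w f a b k * |F f k b - F f k a|)
      ≤ ∑ a, ∑ b, μ a * P a b * (w f a b k * ell f a b) := by
    apply Finset.sum_le_sum
    intro a _
    apply Finset.sum_le_sum
    intro b _
    exact mul_le_mul_of_nonneg_left (mul_le_mul_of_nonneg_left (hFell k a b) (hw0 a b))
      (mul_nonneg (hP.1 a) (hP.2.2.1 a b))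
  linarith

end Vale.Agent.P125.Poly
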