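import Vale.Agent.P125.P58.Defs58

set_option linter.unusedSectionVars false
set_option linter.unusedVariables false

/-!
# P125 Poly: Step 5 (DOWN)
-/

namespace Vale.Agent.P125.Poly

open scoped BigOperators
open Vale.Agent.P125.Dich

theorem stDown_73 (h : StOwnT) (hs : StSmall) : StDown := by
  intro S _ _ μ P hc hL n f τ s a b j0
  obtain ⟨hom, -⟩ := hs S μ P hc hL n f
  have hop0 : ∀ k z, 0 ≤ op P s (om P f k) z := by
    intro k z
    have := hL.op_mono s (fun _ => (0 : ℝ)) (om P f k) (fun y => hom k y) z
    rwa [hL.op_const] at this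
  have hzt : ∀ k z, |zt P f τ s k z| ≤ op P s (om P f k) z := by
    intro k z
    unfold zt
    rw [abs_mul, abs_of_nonneg (hop0 k z)]
    have h1 : |((SignType.sign (hh P f τ k z) : SignType) : ℝ)| ≤ 1 := by
      rcases lt_trichotomy (hh P f τ k z) 0 with h0 | h0 | h0
      · rw [sign_neg h0]; simp
      · rw [h0, sign_zero]; simp
      · rw [sign_pos h0]; simp
    calc |((SignType.sign (hh P f τ k z) : SignType) : ℝ)| * op P s (om P f k) z
        ≤ 1 * op P s (om P f k) z := mul_le_mul_of_nonneg_right h1 (hop0 k z)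
      _ = op P s (om P f k) z := one_mul _
  have hM : ∀ k y, |Mk P f τ s k y| ≤ NU P f τ s k y := by
    intro k y
    unfold Mk NU
    refine (Finset.abs_sum_le_sum_abs _ _).trans (Finset.sum_le_sum fun i _ => ?_)
    refine (hL.abs_op i _ y).trans ?_
    have := hL.op_mono i (fun z => |zt P f τ s k z|) (op P s (om P f k)) (hzt k) y
    rwa [hL.op_op] at this
  have key := h n (fun k => Mk P f τ s k a - Mk P f τ s k b)
    (fun k => NU P f τ s k a + NU P f τ s k b) (by
      intro k
      have h1 := hM k a
      have h2 := hM k b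
      calc |Mk P f τ s k a - Mk P f τ s k b| ≤ |Mk P f τ s k a| + |Mk P f τ s k b| := abs_sub _ _
        _ ≤ _ := add_le_add h1 h2) j0
  have e : ∀ j : Fin n, (∑ i, if j ≤ i then (Mk P f τ s i a - Mk P f τ s i b) else 0)
      = UU P f τ s j a - UU P f τ s j b := by
    intro j
    unfold UU
    rw [← Finset.sum_sub_distrib]
    refine Finset.sum_congr rfl fun i _ => ?_
    split_ifs <;> simp
  simp only [e] at key
  exact key

end Vale.Agent.P125.Poly
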