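import Vale.Agent.P125.P58.Defs58

set_option linter.unusedSectionVars false
set_option linter.unusedVariables false

/-! # P125 Poly: Step 4 (duality), `StDual` -/

namespace Vale.Agent.P125.Poly

open scoped BigOperators
open Vale.Agent.P125.Dich

section Aux

variable {S : Type} [Fintype S] [DecidableEq S]

/-- Dirichlet form identity -/
lemma dirichlet_67 {μ : S → ℝ} {P : Matrix S S ℝ} (hc : IsChain μ P) (L : Lib μ P)
    (M G : S → ℝ) :
    av μ (fun a => M a * (op P 1 G a - G a)) =
      (1 / 2) * ∑ a, ∑ b, μ a * P a b * ((M a - M b) * (G b - G a)) := by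
  have hrow := hc.2.2.2.1
  have hrev := hc.2.2.2.2
  have h1 : av μ (fun a => M a * (op P 1 G a - G a)) =
      ∑ a, ∑ b, μ a * P a b * (M a * (G b - G a)) := by
    simp only [av]
    refine Finset.sum_congr rfl fun a _ => ?_
    rw [L.op_one]
    have e : G a = ∑ b, P a b * G a := by rw [← Finset.sum_mul, hrow a, one_mul]
    have e2 : (∑ b, P a b * G b) - G a = ∑ b, P a b * (G b - G a) := by
      conv_lhs => rw [e]
      rw [← Finset.sum_sub_distrib]
      refine Finset.sum_congr rfl fun b _ => ?_
      ring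
    rw [e2, Finset.mul_sum, Finset.mul_sum]
    refine Finset.sum_congr rfl fun b _ => ?_
    ring
  have h2 : ∑ a, ∑ b, μ a * P a b * (M b * (G a - G b)) =
      ∑ a, ∑ b, μ a * P a b * (M a * (G b - G a)) := by
    rw [Finset.sum_comm]
    refine Finset.sum_congr rfl fun a _ => Finset.sum_congr rfl fun b _ => ?_
    rw [hrev b a]
  rw [h1]
  have h3 : ∑ a, ∑ b, μ a * P a b * ((M a - M b) * (G b - G a)) =
      ∑ a, ∑ b, μ a * P a b * (M a * (G b - G a)) +
        ∑ a, ∑ b, μ a * P a b * (M b * (G a - G b)) := by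
    rw [← Finset.sum_add_distrib]
    refine Finset.sum_congr rfl fun a _ => ?_
    rw [← Finset.sum_add_distrib]
    refine Finset.sum_congr rfl fun b _ => ?_
    ring
  rw [h3, h2]
  ring

/-- `P^τ G - G = ∑_{i<τ} P^i (P G - G)` -/
lemma tele_67 {μ : S → ℝ} {P : Matrix S S ℝ} (L : Lib μ P) (G : S → ℝ) (τ : ℕ) (x : S) :
    op P τ G x - G x = ∑ i ∈ Finset.range τ, op P i (fun z => op P 1 G z - G z) x := by
  induction τ with
  | zero =>
    rw [L.op_zero]
    simp
  | succ τ ih =>
    rw [Finset.sum_range_succ, ← ih, L.op_sub τ (op P 1 G) G x, L.op_op τ 1 G]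
    ring

/-- moving the sum of the powers to the other side -/
lemma adj_sum_67 {μ : S → ℝ} {P : Matrix S S ℝ} (L : Lib μ P) (Z D : S → ℝ) (τ : ℕ) :
    av μ (fun x => Z x * ∑ i ∈ Finset.range τ, op P i D x) =
      av μ (fun x => (∑ i ∈ Finset.range τ, op P i Z x) * D x) := by
  have h1 : av μ (fun x => Z x * ∑ i ∈ Finset.range τ, op P i D x) =
      ∑ i ∈ Finset.range τ, av μ (fun x => Z x * op P i D x) := by
    simp only [av]
    rw [Finset.sum_comm]
    refine Finset.sum_congr rfl fun x _ => ?_
    rw [Finset.mul_sum, Finset.mul_sum]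
  have h2 : av μ (fun x => (∑ i ∈ Finset.range τ, op P i Z x) * D x) =
      ∑ i ∈ Finset.range τ, av μ (fun x => op P i Z x * D x) := by
    simp only [av]
    rw [Finset.sum_comm]
    refine Finset.sum_congr rfl fun x _ => ?_
    rw [Finset.sum_mul, Finset.mul_sum]
  rw [h1, h2]
  exact Finset.sum_congr rfl fun i _ => L.av_adj i Z D

end Aux

theorem stDual_67 : StDual := by
  intro S _ _ μ P hc L n f τ s
  -- one index
  have hk : ∀ k : Fin n, av μ (fun b => om P f k b * op P s (fun z => |hh P f τ k z|) b) =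
      (1 / 2) * ∑ a, ∑ b, μ a * P a b *
        ((Mk P f τ s k a - Mk P f τ s k b) * (F f k b - F f k a)) := by
    intro k
    rw [L.av_adj s (om P f k) (fun z => |hh P f τ k z|)]
    have e1 : av μ (fun x => op P s (om P f k) x * |hh P f τ k x|) =
        av μ (fun x => zt P f τ s k x * hh P f τ k x) := by
      simp only [av]
      refine Finset.sum_congr rfl fun x _ => ?_
      unfold zt
      have : |hh P f τ k x| = (SignType.sign (hh P f τ k x) : ℝ) * hh P f τ k x :=
        (sign_mul_self _).symm
      rw [this]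
      ring
    rw [e1]
    have e2 : av μ (fun x => zt P f τ s k x * hh P f τ k x) =
        av μ (fun x => zt P f τ s k x *
          ∑ i ∈ Finset.range τ, op P i (fun z => op P 1 (F f k) z - F f k z) x) := by
      simp only [av]
      refine Finset.sum_congr rfl fun x _ => ?_
      rw [← tele_67 L (F f k) τ x]
      rfl
    rw [e2, adj_sum_67 L]
    exact dirichlet_67 hc L (Mk P f τ s k) (F f k)
  unfold Rr
  simp only [hk]
  rw [← Finset.mul_sum]
  refine mul_le_mul_of_nonneg_left ?_ (by norm_num)
  -- exchange the sums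
  have e3 : ∑ k : Fin n, ∑ a, ∑ b, μ a * P a b *
        ((Mk P f τ s k a - Mk P f τ s k b) * (F f k b - F f k a)) =
      ∑ a, ∑ b, μ a * P a b *
        ∑ k : Fin n, ((Mk P f τ s k a - Mk P f τ s k b) * (F f k b - F f k a)) := by
    rw [Finset.sum_comm]
    refine Finset.sum_congr rfl fun a _ => ?_
    rw [Finset.sum_comm]
    refine Finset.sum_congr rfl fun b _ => ?_
    rw [Finset.mul_sum]
  rw [e3]
  refine Finset.sum_le_sum fun a _ => Finset.sum_le_sum fun b _ => ?_
  refine mul_le_mul_of_nonneg_left ?_ (mul_nonneg (hc.1 a) (hc.2.2.1 a b))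
  -- Abel summation
  have e4 : ∑ k : Fin n, ((Mk P f τ s k a - Mk P f τ s k b) * (F f k b - F f k a)) =
      ∑ j : Fin n, (f b j - f a j) * (UU P f τ s j a - UU P f τ s j b) := by
    have e5 : ∀ k : Fin n, (Mk P f τ s k a - Mk P f τ s k b) * (F f k b - F f k a) =
        ∑ j : Fin n, (f b j - f a j) *
          (if j ≤ k then (Mk P f τ s k a - Mk P f τ s k b) else 0) := by
      intro k
      unfold F
      rw [← Finset.sum_sub_distrib, Finset.mul_sum]
      refine Finset.sum_congr rfl fun j _ => ?_
      split_ifs <;> ring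
    simp only [e5]
    rw [Finset.sum_comm]
    refine Finset.sum_congr rfl fun j _ => ?_
    rw [← Finset.mul_sum]
    congr 1
    unfold UU
    rw [← Finset.sum_sub_distrib]
    refine Finset.sum_congr rfl fun k _ => ?_
    split_ifs <;> ring
  rw [e4]
  refine Finset.sum_le_sum fun j _ => ?_
  unfold w
  rw [← abs_mul]
  exact le_abs_self _

end Vale.Agent.P125.Poly
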