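import Mathlib
import Vale.Agent.P125.P58.Defs58

/-!
# P125 Poly: EN (Step 7, pointwise energy bound), race copy of helper27
-/

namespace Vale.Agent.P125.Poly

open scoped BigOperators
open Vale.Agent.P125.Dich

variable {S : Type} [Fintype S] [DecidableEq S]

private lemma abs_sign_le_27 (x : ℝ) : |((SignType.sign x : SignType) : ℝ)| ≤ 1 := by
  rcases lt_trichotomy x 0 with h | h | h
  · rw [sign_neg h]; simp
  · rw [h, sign_zero]; simp
  · rw [sign_pos h]; simp

private lemma op_nonneg_27 {μ : S → ℝ} {P : Matrix S S ℝ} (hL : Lib μ P) (k : ℕ) (g : S → ℝ)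
    (hg : ∀ y, 0 ≤ g y) (x : S) : 0 ≤ op P k g x := by
  have h := hL.op_mono k (fun _ => 0) g hg x
  rwa [hL.op_const] at h

private lemma abs_op_le_27 {μ : S → ℝ} {P : Matrix S S ℝ} (hL : Lib μ P) (k : ℕ) (φ L : S → ℝ)
    (hφ : ∀ z, |φ z| ≤ L z) (x : S) : |op P k φ x| ≤ op P k L x :=
  (hL.abs_op k φ x).trans (hL.op_mono k _ _ hφ x)

/-- the abstract energy estimate -/
theorem en_abs_27 {μ : S → ℝ} {P : Matrix S S ℝ} (hL : Lib μ P) (φ L : S → ℝ)
    (hφ : ∀ z, |φ z| ≤ L z) (τ s : ℕ) (g A : S → ℝ)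
    (hg : ∀ y, g y = ∑ i ∈ Finset.range τ, op P i φ y)
    (hA : ∀ y, A y = ∑ i ∈ Finset.range τ, op P i L y) (y : S) :
    ∑ i ∈ Finset.range τ, op P (i + s) (fun a => ∑ b, P a b * (g b - g a) ^ 2) y ≤
      op P (s + τ) (fun z => A z ^ 2) y +
        2 * ∑ i ∈ Finset.range τ, op P (i + s) (fun z => A z * (op P τ L z + L z)) y := by
  -- (a) |g| ≤ A
  have hgA : ∀ z, |g z| ≤ A z := by
    intro z
    rw [hg, hA]
    refine (Finset.abs_sum_le_sum_abs _ _).trans (Finset.sum_le_sum fun i _ => ?_)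
    exact abs_op_le_27 hL i φ L hφ z
  have hA0 : ∀ z, 0 ≤ A z := fun z => (abs_nonneg _).trans (hgA z)
  -- (b) P g - g = P^τ φ - φ
  have hgfun : g = fun y => ∑ i ∈ Finset.range τ, op P i φ y := funext hg
  have hPg : ∀ x, op P 1 g x - g x = op P τ φ x - φ x := by
    intro x
    have h1 : op P 1 g x = ∑ i ∈ Finset.range τ, op P (i + 1) φ x := by
      rw [hgfun, hL.op_sum ℕ (Finset.range τ) 1 (fun i => op P i φ) x]
      refine Finset.sum_congr rfl fun i _ => ?_
      rw [hL.op_op, add_comm]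
    rw [h1, hg, ← Finset.sum_sub_distrib,
      Finset.sum_range_sub (fun i => op P i φ x) τ, hL.op_zero]
  have hPgabs : ∀ x, |op P 1 g x - g x| ≤ op P τ L x + L x := by
    intro x
    rw [hPg]
    refine (abs_sub _ _).trans (add_le_add (abs_op_le_27 hL τ φ L hφ x) (hφ x))
  -- (c) carre du champ
  have hrow : ∀ a, ∑ b, P a b = 1 := by
    intro a
    have := hL.pw_sum 1 a
    simpa using this
  have hc : ∀ a, ∑ b, P a b * (g b - g a) ^ 2 =
      (op P 1 (fun z => g z ^ 2) a - g a ^ 2) - 2 * (g a * (op P 1 g a - g a)) := by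
    intro a
    rw [hL.op_one, hL.op_one]
    have e1 : ∀ b, P a b * (g b - g a) ^ 2 =
        P a b * g b ^ 2 - 2 * g a * (P a b * g b) + g a ^ 2 * P a b := by
      intro b; ring
    simp only [e1]
    rw [Finset.sum_add_distrib, Finset.sum_sub_distrib, ← Finset.mul_sum, ← Finset.mul_sum, hrow]
    ring
  -- (d) expansion of each term
  have hterm : ∀ i, op P (i + s) (fun a => ∑ b, P a b * (g b - g a) ^ 2) y =
      (op P (i + 1 + s) (fun z => g z ^ 2) y - op P (i + s) (fun z => g z ^ 2) y) -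
        2 * op P (i + s) (fun z => g z * (op P 1 g z - g z)) y := by
    intro i
    have e0 : (fun a => ∑ b, P a b * (g b - g a) ^ 2) =
        fun a => (fun a => op P 1 (fun z => g z ^ 2) a - (fun z => g z ^ 2) a) a -
          (fun a => 2 * (fun z => g z * (op P 1 g z - g z)) a) a := by
      funext a; exact hc a
    rw [e0, hL.op_sub, hL.op_sub, hL.op_smul]
    have e2 : op P (i + s) (fun y => op P 1 (fun z => g z ^ 2) y) y =
        op P (i + 1 + s) (fun z => g z ^ 2) y := by
      have := hL.op_op (i + s) 1 (fun z => g z ^ 2)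
      have h3 : i + s + 1 = i + 1 + s := by ring
      rw [h3] at this
      exact congrFun this y
    rw [e2]
  simp only [hterm]
  rw [Finset.sum_sub_distrib,
    Finset.sum_range_sub (fun i => op P (i + s) (fun z => g z ^ 2) y) τ, ← Finset.mul_sum]
  have h1 : op P (τ + s) (fun z => g z ^ 2) y ≤ op P (s + τ) (fun z => A z ^ 2) y := by
    rw [add_comm τ s]
    refine hL.op_mono _ _ _ (fun z => ?_) y
    exact sq_le_sq' (by linarith [(abs_le.mp (hgA z)).1]) (abs_le.mp (hgA z)).2
  have h2 : 0 ≤ op P (0 + s) (fun z => g z ^ 2) y :=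
    op_nonneg_27 hL _ _ (fun z => sq_nonneg _) y
  have h3 : -(∑ i ∈ Finset.range τ, op P (i + s) (fun z => g z * (op P 1 g z - g z)) y) ≤
      ∑ i ∈ Finset.range τ, op P (i + s) (fun z => A z * (op P τ L z + L z)) y := by
    rw [← Finset.sum_neg_distrib]
    refine Finset.sum_le_sum fun i _ => ?_
    have e : -(op P (i + s) (fun z => g z * (op P 1 g z - g z)) y) =
        op P (i + s) (fun z => (-1) * (fun z => g z * (op P 1 g z - g z)) z) y := by
      rw [hL.op_smul]; ring
    rw [e]
    refine hL.op_mono _ _ _ (fun z => ?_) y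
    have h4 : |g z * (op P 1 g z - g z)| ≤ A z * (op P τ L z + L z) := by
      rw [abs_mul]
      exact mul_le_mul (hgA z) (hPgabs z) (abs_nonneg _) (hA0 z)
    have h5 := (abs_le.mp h4).1
    show (-1) * (g z * (op P 1 g z - g z)) ≤ _
    linarith
  linarith

theorem stEn_27 (hs : StSmall) : StEn := by
  intro S _ _ μ P hc hL n f τ s k y
  obtain ⟨hom0, homsum, -, -, -, -, -, -, -, -⟩ := hs S μ P hc hL n f
  set φ : S → ℝ := fun z => ∑ k', if k ≤ k' then zt P f τ s k' z else 0 with hφdef
  have hφ : ∀ z, |φ z| ≤ LL P f s z := by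
    intro z
    have e : LL P f s z = ∑ k', op P s (om P f k') z := by
      unfold LL
      rw [← hL.op_sum (Fin n) Finset.univ s (fun k' => om P f k') z]
      congr 1
      funext x
      exact (homsum x).symm
    rw [e]
    refine (Finset.abs_sum_le_sum_abs _ _).trans (Finset.sum_le_sum fun k' _ => ?_)
    have h0 : 0 ≤ op P s (om P f k') z := op_nonneg_27 hL _ _ (hom0 k') z
    by_cases hk : k ≤ k'
    · rw [if_pos hk]
      unfold zt
      rw [abs_mul, abs_of_nonneg h0]
      calc _ ≤ 1 * op P s (om P f k') z :=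
            mul_le_mul_of_nonneg_right (abs_sign_le_27 _) h0
        _ = _ := one_mul _
    · rw [if_neg hk, abs_zero]; exact h0
  have hg : ∀ y, UU P f τ s k y = ∑ i ∈ Finset.range τ, op P i φ y := by
    intro y
    have e : ∀ i, op P i φ y = ∑ k', if k ≤ k' then op P i (zt P f τ s k') y else 0 := by
      intro i
      rw [hφdef, hL.op_sum (Fin n) Finset.univ i
        (fun k' => fun z => if k ≤ k' then zt P f τ s k' z else 0) y]
      refine Finset.sum_congr rfl fun k' _ => ?_
      by_cases hk : k ≤ k'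
      · simp only [if_pos hk]
      · simp only [if_neg hk]
        exact hL.op_const i 0 y
    simp only [e]
    rw [Finset.sum_comm]
    unfold UU Mk
    refine Finset.sum_congr rfl fun k' _ => ?_
    by_cases hk : k ≤ k'
    · simp only [if_pos hk]
    · simp only [if_neg hk, Finset.sum_const_zero]
  have := en_abs_27 hL φ (LL P f s) hφ τ s (UU P f τ s k) (AA P f τ s) hg (fun _ => rfl) y
  exact this

end Vale.Agent.P125.Poly
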