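import Vale.Agent.P125.P58.Defs58

set_option linter.unusedSectionVars false
set_option linter.unusedVariables false

namespace Vale.Agent.P125.Poly

open scoped BigOperators
open Vale.Agent.P125.Dich

private theorem amgm14 (lam x y : ℝ) (hl : 0 < lam) : x * y ≤ (lam * x ^ 2 + y ^ 2 / lam) / 2 := by
  have h : 0 ≤ (lam * x - y) ^ 2 / lam := div_nonneg (sq_nonneg _) hl.le
  have e : (lam * x - y) ^ 2 / lam = lam * x ^ 2 - 2 * (x * y) + y ^ 2 / lam := by
    field_simp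
    ring
  rw [e] at h
  linarith

private theorem num14 (τ : ℕ) :
    Real.sqrt (Real.sqrt (5 * (τ : ℝ) ^ 3)) ≤ (3 / 2) * (τ : ℝ) ^ (3 / 4 : ℝ) := by
  have hτ : (0 : ℝ) ≤ (τ : ℝ) := Nat.cast_nonneg τ
  have hy : 0 ≤ (3 / 2) * (τ : ℝ) ^ (3 / 4 : ℝ) := by positivity
  have e : ((τ : ℝ) ^ (3 / 4 : ℝ)) ^ 4 = (τ : ℝ) ^ 3 := by
    rw [← Real.rpow_natCast, ← Real.rpow_mul hτ]
    have : (3 / 4 : ℝ) * ((4 : ℕ) : ℝ) = ((3 : ℕ) : ℝ) := by norm_num
    rw [this, Real.rpow_natCast]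
  rw [Real.sqrt_le_iff]
  refine ⟨hy, ?_⟩
  rw [Real.sqrt_le_iff]
  refine ⟨by positivity, ?_⟩
  have e2 : (((3 / 2) * (τ : ℝ) ^ (3 / 4 : ℝ)) ^ 2) ^ 2 = (81 / 16) * ((τ : ℝ) ^ (3 / 4 : ℝ)) ^ 4 := by
    ring
  rw [e2, e]
  have : 0 ≤ (τ : ℝ) ^ 3 := by positivity
  linarith

theorem stR_14 (hs : StSmall) (h1 : StDual) (h2 : StDown) (h3 : StBack) (h4 : StXi) : StR := by
  intro S _ _ μ P hC hL n f τ s
  obtain ⟨hom, -, -, -, -, -, hU, -, -, -⟩ := hs S μ P hC hL n f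
  have hd := h1 S μ P hC hL n f τ s
  by_cases hτ0 : τ = 0
  · subst hτ0
    have hz : ∀ (j : Fin n) (y : S), UU P f 0 s j y = 0 := by
      intro j y
      simp [UU, Mk]
    have : (1 / 2 : ℝ) * ∑ a, ∑ b, μ a * P a b *
        ∑ j, w f a b j * |UU P f 0 s j a - UU P f 0 s j b| = 0 := by
      simp [hz]
    rw [this] at hd
    have hr : (0 : ℝ) ≤ (3 / 2) * ((0 : ℕ) : ℝ) ^ (3 / 4 : ℝ) * U μ P f := by positivity
    linarith
  have hτ1 : (1 : ℝ) ≤ (τ : ℝ) := by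
    have : 1 ≤ τ := Nat.one_le_iff_ne_zero.2 hτ0
    exact_mod_cast this
  -- abbreviations
  set Xi : S → S → ℝ := fun a b =>
    ∑ k, (NU P f τ s k a + NU P f τ s k b) * |UU P f τ s k a - UU P f τ s k b| with hXi
  have hNU : ∀ k y, 0 ≤ NU P f τ s k y := by
    intro k y
    unfold NU
    refine Finset.sum_nonneg fun i _ => ?_
    have := hL.op_mono (i + s) (fun _ => 0) (om P f k) (hom k) y
    rwa [hL.op_const] at this
  have hXi0 : ∀ a b, 0 ≤ Xi a b := by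
    intro a b
    refine Finset.sum_nonneg fun k _ => mul_nonneg (add_nonneg (hNU k a) (hNU k b)) (abs_nonneg _)
  set q : ℝ := Real.sqrt (5 * (τ : ℝ) ^ 3) with hq
  have hq0 : 0 < q := by
    rw [hq]
    apply Real.sqrt_pos.2
    positivity
  set lam : ℝ := 2 * Real.sqrt q with hlam
  have hlam0 : 0 < lam := by
    rw [hlam]
    have := Real.sqrt_pos.2 hq0
    linarith
  have hlam2 : lam ^ 2 = 4 * q := by
    rw [hlam, mul_pow, Real.sq_sqrt hq0.le]
    norm_num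
  -- pointwise bound
  have hpt : ∀ a b, ∑ j, w f a b j * |UU P f τ s j a - UU P f τ s j b|
      ≤ (lam * ell f a b ^ 2 + 2 * Xi a b / lam) / 2 := by
    intro a b
    have hD : ∀ j, |UU P f τ s j a - UU P f τ s j b| ≤ Real.sqrt (2 * Xi a b) := by
      intro j
      exact Real.abs_le_sqrt (h2 S μ P hC hL n f τ s a b j)
    have h5 : ∑ j, w f a b j * |UU P f τ s j a - UU P f τ s j b|
        ≤ ∑ j, w f a b j * Real.sqrt (2 * Xi a b) := by
      refine Finset.sum_le_sum fun j _ => mul_le_mul_of_nonneg_left (hD j) ?_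
      unfold w
      exact abs_nonneg _
    rw [← Finset.sum_mul] at h5
    have h6 := amgm14 lam (ell f a b) (Real.sqrt (2 * Xi a b)) hlam0
    rw [Real.sq_sqrt (by have := hXi0 a b; linarith)] at h6
    exact le_trans h5 h6
  have hw : ∀ a b, 0 ≤ μ a * P a b := fun a b => mul_nonneg (hC.1 a) (hC.2.2.1 a b)
  have hsum : ∑ a, ∑ b, μ a * P a b * ∑ j, w f a b j * |UU P f τ s j a - UU P f τ s j b|
      ≤ ∑ a, ∑ b, μ a * P a b * ((lam * ell f a b ^ 2 + 2 * Xi a b / lam) / 2) :=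
    Finset.sum_le_sum fun a _ => Finset.sum_le_sum fun b _ =>
      mul_le_mul_of_nonneg_left (hpt a b) (hw a b)
  have hsplit : ∑ a, ∑ b, μ a * P a b * ((lam * ell f a b ^ 2 + 2 * Xi a b / lam) / 2)
      = lam / 2 * U μ P f + 1 / lam * ∑ a, ∑ b, μ a * P a b * Xi a b := by
    unfold U
    rw [Finset.mul_sum, Finset.mul_sum, ← Finset.sum_add_distrib]
    refine Finset.sum_congr rfl fun a _ => ?_
    rw [Finset.mul_sum, Finset.mul_sum, ← Finset.sum_add_distrib]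
    refine Finset.sum_congr rfl fun b _ => ?_
    field_simp
  have hX : ∑ a, ∑ b, μ a * P a b * Xi a b ≤ 2 * (q * U μ P f) := by
    have e := h3 S μ P hC hL n f τ s
    have e4 := h4 S μ P hC hL n f τ s
    rw [hXi]
    simp only
    rw [e]
    linarith
  have hfin : lam / 2 * U μ P f + 1 / lam * ∑ a, ∑ b, μ a * P a b * Xi a b ≤ lam * U μ P f := by
    have h7 : 1 / lam * ∑ a, ∑ b, μ a * P a b * Xi a b ≤ 1 / lam * (2 * (q * U μ P f)) :=
      mul_le_mul_of_nonneg_left hX (by positivity)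
    have h8 : 1 / lam * (2 * (q * U μ P f)) = lam / 2 * U μ P f := by
      have : q = lam ^ 2 / 4 := by rw [hlam2]; ring
      rw [this]
      field_simp
      ring
    linarith
  have hnum := num14 τ
  rw [← hq] at hnum
  have hlast : (1 / 2 : ℝ) * (lam * U μ P f) ≤ (3 / 2) * (τ : ℝ) ^ (3 / 4 : ℝ) * U μ P f := by
    have : (1 / 2 : ℝ) * (lam * U μ P f) = Real.sqrt q * U μ P f := by
      rw [hlam]
      ring
    rw [this]
    exact mul_le_mul_of_nonneg_right hnum hU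
  linarith

end Vale.Agent.P125.Poly
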