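import Vale.Agent.P125.P58.Defs58

set_option linter.unusedSectionVars false
set_option linter.unusedVariables false

namespace Vale.Agent.P125.Poly

open scoped BigOperators
open Vale.Agent.P125.Dich

lemma av_sum_r92 {S : Type} [Fintype S] {ι : Type} (μ : S → ℝ) (s : Finset ι) (g : ι → S → ℝ) :
    av μ (fun x => ∑ i ∈ s, g i x) = ∑ i ∈ s, av μ (g i) := by
  unfold av
  simp only [Finset.mul_sum]
  rw [Finset.sum_comm]

lemma av_add_r92 {S : Type} [Fintype S] (μ : S → ℝ) (g h : S → ℝ) :
    av μ (fun x => g x + h x) = av μ g + av μ h := by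
  unfold av
  rw [← Finset.sum_add_distrib]
  refine Finset.sum_congr rfl fun x _ => ?_
  ring

theorem stRem_92 (hs : StSmall) (h1 : StTriv1) : StRem := by
  intro S _ _ μ P hP hL n f m ρ
  obtain ⟨hom0, homsum, hlb0, hl20, havl2, havlb, hU0, -, -, -⟩ := hs S μ P hP hL n f
  -- pointwise bound
  have hAk : ∀ (k : Fin n) (b : S), Ak P f (m + ρ) k b ≤
      Ak P f m k b + ∑ i ∈ Finset.range ρ, op P (m + i) (lbar P f) b := by
    intro k b
    have e1 : Ak P f (m + ρ) k b =
        ∑ z, (P ^ m) b z * ∑ y, (P ^ ρ) z y * |F f k y - F f k b| := by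
      unfold Ak
      have : ∀ y, (P ^ (m + ρ)) b y * |F f k y - F f k b| =
          ∑ z, (P ^ m) b z * ((P ^ ρ) z y * |F f k y - F f k b|) := by
        intro y
        rw [hL.pw_add m ρ b y, Finset.sum_mul]
        refine Finset.sum_congr rfl fun z _ => ?_
        ring
      simp only [this]
      rw [Finset.sum_comm]
      refine Finset.sum_congr rfl fun z _ => ?_
      rw [Finset.mul_sum]
    have e2 : ∀ z, ∑ y, (P ^ ρ) z y * |F f k y - F f k b| ≤
        |F f k z - F f k b| + Ak P f ρ k z := by
      intro z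
      have : |F f k z - F f k b| + Ak P f ρ k z =
          ∑ y, (P ^ ρ) z y * (|F f k z - F f k b| + |F f k y - F f k z|) := by
        unfold Ak
        simp only [mul_add]
        rw [Finset.sum_add_distrib, ← Finset.sum_mul, hL.pw_sum ρ z, one_mul]
      rw [this]
      refine Finset.sum_le_sum fun y _ => ?_
      refine mul_le_mul_of_nonneg_left ?_ (hL.pw_nonneg ρ z y)
      have : F f k y - F f k b = (F f k z - F f k b) + (F f k y - F f k z) := by ring
      rw [this]
      exact abs_add_le _ _
    rw [e1]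
    calc ∑ z, (P ^ m) b z * ∑ y, (P ^ ρ) z y * |F f k y - F f k b|
        ≤ ∑ z, (P ^ m) b z * (|F f k z - F f k b| +
            ∑ i ∈ Finset.range ρ, op P i (lbar P f) z) := by
          refine Finset.sum_le_sum fun z _ => ?_
          refine mul_le_mul_of_nonneg_left ?_ (hL.pw_nonneg m b z)
          exact le_trans (e2 z) (add_le_add le_rfl (h1 S μ P hP hL n f k ρ z))
      _ = Ak P f m k b + op P m (fun z => ∑ i ∈ Finset.range ρ, op P i (lbar P f) z) b := by
          unfold Ak
          simp only [mul_add]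
          rw [Finset.sum_add_distrib]
          rfl
      _ = Ak P f m k b + ∑ i ∈ Finset.range ρ, op P (m + i) (lbar P f) b := by
          rw [hL.op_sum]
          congr 1
          refine Finset.sum_congr rfl fun i _ => ?_
          rw [hL.op_op]
  -- one term
  have hterm : ∀ j : ℕ, av μ (fun b => lbar P f b * op P j (lbar P f) b) ≤ U μ P f := by
    intro j
    have h := hL.av_cs (lbar P f) (op P j (lbar P f))
    have h5 : av μ (fun x => op P j (lbar P f) x ^ 2) ≤ av μ (fun x => lbar P f x ^ 2) := by
      have := hL.av_mono _ _ (hL.sq_op j (lbar P f))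
      rwa [hL.av_op] at this
    have h0 : 0 ≤ av μ (fun x => lbar P f x ^ 2) := by
      have := hL.av_mono (fun _ => (0 : ℝ)) (fun x => lbar P f x ^ 2) (fun x => sq_nonneg _)
      have e0 : av μ (fun _ => (0 : ℝ)) = 0 := by
        unfold av
        simp
      rwa [e0] at this
    calc av μ (fun b => lbar P f b * op P j (lbar P f) b)
        ≤ Real.sqrt (av μ (fun x => lbar P f x ^ 2)) *
            Real.sqrt (av μ (fun x => op P j (lbar P f) x ^ 2)) := h
      _ ≤ Real.sqrt (av μ (fun x => lbar P f x ^ 2)) *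
            Real.sqrt (av μ (fun x => lbar P f x ^ 2)) :=
          mul_le_mul_of_nonneg_left (Real.sqrt_le_sqrt h5) (Real.sqrt_nonneg _)
      _ = av μ (fun x => lbar P f x ^ 2) := Real.mul_self_sqrt h0
      _ ≤ U μ P f := havlb
  have e3 : ∑ k, av μ (fun b => om P f k b * ∑ i ∈ Finset.range ρ, op P (m + i) (lbar P f) b) =
      ∑ i ∈ Finset.range ρ, av μ (fun b => lbar P f b * op P (m + i) (lbar P f) b) := by
    rw [← av_sum_r92, ← av_sum_r92]
    congr 1
    funext b
    rw [← Finset.sum_mul, homsum b, Finset.mul_sum]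
  have h4 : ∑ i ∈ Finset.range ρ, av μ (fun b => lbar P f b * op P (m + i) (lbar P f) b) ≤
      ρ * U μ P f := by
    calc ∑ i ∈ Finset.range ρ, av μ (fun b => lbar P f b * op P (m + i) (lbar P f) b)
        ≤ ∑ i ∈ Finset.range ρ, U μ P f := Finset.sum_le_sum fun i _ => hterm (m + i)
      _ = ρ * U μ P f := by
          rw [Finset.sum_const, Finset.card_range, nsmul_eq_mul]
  have h6 : Qsum μ P f (m + ρ) ≤ Qsum μ P f m +
      ∑ k, av μ (fun b => om P f k b * ∑ i ∈ Finset.range ρ, op P (m + i) (lbar P f) b) := by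
    unfold Qsum Qk
    rw [← Finset.sum_add_distrib]
    refine Finset.sum_le_sum fun k _ => ?_
    rw [← av_add_r92]
    refine hL.av_mono _ _ fun b => ?_
    rw [← mul_add]
    exact mul_le_mul_of_nonneg_left (hAk k b) (hom0 k b)
  linarith

end Vale.Agent.P125.Poly
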