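import Vale.Agent.P125.P58.Defs58

set_option linter.unusedSectionVars false
set_option linter.unusedVariables false

/-!
# P125 Poly: fluctuation plus drift induction (Step 3), subtask Sqrt
-/

namespace Vale.Agent.P125.Poly

open scoped BigOperators
open Vale.Agent.P125.Dich

section

variable {S : Type} [Fintype S] [DecidableEq S]

lemma shift_89 {μ : S → ℝ} {R : Matrix S S ℝ} (hL : Lib μ R) (u : S → ℝ) (J : ℕ) (b : S) :
    ∑ z, R b z * (∑ j ∈ Finset.range J, op R j u z) + u b
      = ∑ j ∈ Finset.range (J + 1), op R j u b := by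
  rw [Finset.sum_range_succ', hL.op_zero]
  congr 1
  rw [← hL.op_one, hL.op_sum]
  refine Finset.sum_congr rfl fun j _ => ?_
  rw [hL.op_op, add_comm]

lemma sqrt_step_89 (A c d : ℝ) (hA : c ^ 2 ≤ A) :
    Real.sqrt (A + 2 * c * d) ≤ Real.sqrt A + |d| := by
  have h1 : |c| ≤ Real.sqrt A := Real.abs_le_sqrt hA
  have hA0 : 0 ≤ A := le_trans (sq_nonneg c) hA
  have h2 : 0 ≤ Real.sqrt A + |d| := add_nonneg (Real.sqrt_nonneg _) (abs_nonneg _)
  rw [← Real.sqrt_sq h2]
  apply Real.sqrt_le_sqrt
  have h3 : Real.sqrt A ^ 2 = A := Real.sq_sqrt hA0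
  have h4 : c * d ≤ |c| * |d| := by
    rw [← abs_mul]
    exact le_abs_self _
  have h5 : |c| * |d| ≤ Real.sqrt A * |d| := mul_le_mul_of_nonneg_right h1 (abs_nonneg _)
  have h6 : |d| ^ 2 = d ^ 2 := sq_abs d
  nlinarith [sq_nonneg d]

end

theorem stSqrt_89 : StSqrt := by
  intro S _ _ μ R hc hL G J
  obtain ⟨v, hv⟩ : ∃ v : S → ℝ, v = fun z => ∑ y, R z y * (G y - G z) ^ 2 := ⟨_, rfl⟩
  obtain ⟨d, hd⟩ : ∃ d : S → ℝ, d = fun z => ∑ y, R z y * (G y - G z) := ⟨_, rfl⟩
  have hR0 : ∀ i j, 0 ≤ R i j := hc.2.2.1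
  have hR1 : ∀ i, ∑ j, R i j = 1 := hc.2.2.2.1
  have v0 : ∀ z, 0 ≤ v z := by
    intro z
    rw [hv]
    exact Finset.sum_nonneg fun y _ => mul_nonneg (hR0 z y) (sq_nonneg _)
  have S0 : ∀ J z, 0 ≤ ∑ j ∈ Finset.range J, op R j v z := by
    intro J z
    refine Finset.sum_nonneg fun j _ => ?_
    unfold op
    exact Finset.sum_nonneg fun y _ => mul_nonneg (hL.pw_nonneg j z y) (v0 y)
  have main : ∀ (J : ℕ) (c : ℝ) (b : S), ∑ y, (R ^ J) b y * |c + G y - G b| ≤
      Real.sqrt (c ^ 2 + ∑ j ∈ Finset.range J, op R j v b) +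
        ∑ j ∈ Finset.range J, op R j (fun z => |d z|) b := by
    intro J
    induction J with
    | zero =>
      intro c b
      simp only [pow_zero, Finset.range_zero, Finset.sum_empty, add_zero]
      rw [Real.sqrt_sq_eq_abs, Finset.sum_eq_single b]
      · simp
      · intro y _ hy
        rw [Matrix.one_apply_ne (Ne.symm hy)]
        ring
      · intro h
        exact absurd (Finset.mem_univ _) h
    | succ J ih =>
      intro c b
      obtain ⟨X, hX⟩ : ∃ X : S → ℝ,
          X = fun z => (c + G z - G b) ^ 2 + ∑ j ∈ Finset.range J, op R j v z := ⟨_, rfl⟩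
      have X0 : ∀ z, 0 ≤ X z := by
        intro z
        rw [hX]
        exact add_nonneg (sq_nonneg _) (S0 J z)
      have e1 : ∑ y, (R ^ (J + 1)) b y * |c + G y - G b|
          = ∑ z, R b z * ∑ y, (R ^ J) z y * |(c + G z - G b) + G y - G z| := by
        simp only [pow_succ', Matrix.mul_apply, Finset.sum_mul, Finset.mul_sum]
        rw [Finset.sum_comm]
        refine Finset.sum_congr rfl fun z _ => Finset.sum_congr rfl fun y _ => ?_
        have : c + G z - G b + G y - G z = c + G y - G b := by ring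
        rw [this]
        ring
      have e2 : ∑ z, R b z * ∑ y, (R ^ J) z y * |(c + G z - G b) + G y - G z| ≤
          ∑ z, R b z * Real.sqrt (X z) +
            ∑ z, R b z * ∑ j ∈ Finset.range J, op R j (fun z => |d z|) z := by
        rw [← Finset.sum_add_distrib]
        refine Finset.sum_le_sum fun z _ => ?_
        rw [← mul_add]
        refine mul_le_mul_of_nonneg_left ?_ (hR0 b z)
        have := ih (c + G z - G b) z
        rw [hX]
        exact this
      have e3 : ∑ z, R b z * Real.sqrt (X z) ≤ Real.sqrt (∑ z, R b z * X z) := by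
        have h := hL.sq_op 1 (fun z => Real.sqrt (X z)) b
        rw [hL.op_one, hL.op_one] at h
        have h' : ∑ y, R b y * Real.sqrt (X y) ^ 2 = ∑ z, R b z * X z :=
          Finset.sum_congr rfl fun z _ => by rw [Real.sq_sqrt (X0 z)]
        rw [h'] at h
        exact (le_abs_self _).trans (Real.abs_le_sqrt h)
      have e4 : ∑ z, R b z * X z
          = (c ^ 2 + ∑ j ∈ Finset.range (J + 1), op R j v b) + 2 * c * d b := by
        rw [← shift_89 hL v J b, hX, hv, hd]
        simp only [mul_add, Finset.sum_add_distrib]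
        have q : ∀ z, R b z * (c + G z - G b) ^ 2
            = c ^ 2 * R b z + 2 * c * (R b z * (G z - G b)) + R b z * (G z - G b) ^ 2 := by
          intro z
          ring
        simp only [q, Finset.sum_add_distrib, ← Finset.mul_sum, hR1 b]
        ring
      have e5 : Real.sqrt (∑ z, R b z * X z) ≤
          Real.sqrt (c ^ 2 + ∑ j ∈ Finset.range (J + 1), op R j v b) + |d b| := by
        rw [e4]
        apply sqrt_step_89
        have := S0 (J + 1) b
        linarith
      have e6 := shift_89 hL (fun z => |d z|) J b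
      rw [e1]
      refine e2.trans ?_
      rw [← e6]
      have e7 := e3.trans e5
      linarith
  intro c b
  have := main J c b
  rw [hv, hd] at this
  exact this

end Vale.Agent.P125.Poly
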