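import Vale.Agent.P125.P58.Defs58

set_option linter.unusedSectionVars false
set_option linter.unusedVariables false

/-!
# P125 Poly: telescoping along the four point path measure, statement `StTel`
-/

namespace Vale.Agent.P125.Poly

open scoped BigOperators
open Vale.Agent.P125.Dich

section
variable {S : Type} [Fintype S] [DecidableEq S]

lemma tel_id_59 (P : Matrix S S ℝ) (g : S → ℝ) (t : ℕ) (x y : S) :
    ∑ r ∈ Finset.range t, ∑ a, ∑ b, (P ^ r) x a * P a b * (P ^ (t - 1 - r)) b y * (g b - g a)
      = (P ^ t) x y * (g y - g x) := by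
  set c : ℕ → ℝ := fun r => ∑ b, (P ^ r) x b * g b * (P ^ (t - r)) b y with hc
  have hterm : ∀ r ∈ Finset.range t,
      ∑ a, ∑ b, (P ^ r) x a * P a b * (P ^ (t - 1 - r)) b y * (g b - g a) = c (r + 1) - c r := by
    intro r hr
    have hr' : r < t := Finset.mem_range.1 hr
    have A1 : ∑ a, ∑ b, (P ^ r) x a * P a b * (P ^ (t - 1 - r)) b y * g b = c (r + 1) := by
      rw [Finset.sum_comm]
      apply Finset.sum_congr rfl
      intro b _
      have e : t - (r + 1) = t - 1 - r := by omega
      rw [e, pow_succ, Matrix.mul_apply, Finset.sum_mul, Finset.sum_mul]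
      apply Finset.sum_congr rfl
      intro a _
      ring
    have A2 : ∑ a, ∑ b, (P ^ r) x a * P a b * (P ^ (t - 1 - r)) b y * g a = c r := by
      apply Finset.sum_congr rfl
      intro a _
      have e : t - r = (t - 1 - r) + 1 := by omega
      rw [e, pow_succ', Matrix.mul_apply, Finset.mul_sum]
      apply Finset.sum_congr rfl
      intro b _
      ring
    rw [← A1, ← A2, ← Finset.sum_sub_distrib]
    apply Finset.sum_congr rfl
    intro a _
    rw [← Finset.sum_sub_distrib]
    apply Finset.sum_congr rfl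
    intro b _
    ring
  rw [Finset.sum_congr rfl hterm, Finset.sum_range_sub c t]
  have c1 : c t = (P ^ t) x y * g y := by
    simp only [hc, Nat.sub_self, pow_zero, Matrix.one_apply]
    rw [Finset.sum_eq_single y]
    · simp
    · intro b _ hb
      simp [hb]
    · intro h
      exact absurd (Finset.mem_univ y) h
  have c0 : c 0 = (P ^ t) x y * g x := by
    simp only [hc, Nat.sub_zero, pow_zero, Matrix.one_apply]
    rw [Finset.sum_eq_single x]
    · simp
      ring
    · intro b _ hb
      simp [Ne.symm hb]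
    · intro h
      exact absurd (Finset.mem_univ x) h
  rw [c1, c0]
  ring

end

theorem stTel_59 : StTel := by
  intro S _ _ μ P hP hL g Φ hΦ t
  have key : ∀ x y, (P ^ t) x y * |g y - g x| ≤
      ∑ r ∈ Finset.range t, ∑ a, ∑ b, (P ^ r) x a * P a b * (P ^ (t - 1 - r)) b y * |g b - g a| := by
    intro x y
    have h0 : 0 ≤ (P ^ t) x y := hL.pw_nonneg t x y
    rw [← abs_of_nonneg h0, ← abs_mul, ← tel_id_59]
    refine (Finset.abs_sum_le_sum_abs _ _).trans (Finset.sum_le_sum ?_)
    intro r _
    refine (Finset.abs_sum_le_sum_abs _ _).trans (Finset.sum_le_sum ?_)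
    intro a _
    refine (Finset.abs_sum_le_sum_abs _ _).trans (Finset.sum_le_sum ?_)
    intro b _
    rw [abs_mul, abs_of_nonneg (mul_nonneg (mul_nonneg (hL.pw_nonneg r x a) (hP.2.2.1 a b))
      (hL.pw_nonneg _ b y))]
  have h1 : ∑ x, ∑ y, μ x * (P ^ t) x y * (|g y - g x| * Φ x y) ≤
      ∑ x, ∑ y, μ x * Φ x y * ∑ r ∈ Finset.range t, ∑ a, ∑ b,
        (P ^ r) x a * P a b * (P ^ (t - 1 - r)) b y * |g b - g a| := by
    apply Finset.sum_le_sum
    intro x _
    apply Finset.sum_le_sum
    intro y _
    have := mul_le_mul_of_nonneg_left (key x y) (mul_nonneg (hP.1 x) (hΦ x y))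
    calc μ x * (P ^ t) x y * (|g y - g x| * Φ x y)
        = μ x * Φ x y * ((P ^ t) x y * |g y - g x|) := by ring
      _ ≤ _ := this
  refine h1.trans (le_of_eq ?_)
  simp only [Finset.mul_sum]
  -- reorder the sums
  have e1 : ∀ x, ∑ y, ∑ r ∈ Finset.range t, ∑ a, ∑ b,
      μ x * Φ x y * ((P ^ r) x a * P a b * (P ^ (t - 1 - r)) b y * |g b - g a|)
      = ∑ r ∈ Finset.range t, ∑ a, ∑ b, ∑ y,
        μ x * (P ^ r) x a * P a b * (P ^ (t - 1 - r)) b y * (|g b - g a| * Φ x y) := by
    intro x
    rw [Finset.sum_comm]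
    apply Finset.sum_congr rfl
    intro r _
    rw [Finset.sum_comm]
    apply Finset.sum_congr rfl
    intro a _
    rw [Finset.sum_comm]
    apply Finset.sum_congr rfl
    intro b _
    apply Finset.sum_congr rfl
    intro y _
    ring
  simp only [e1]
  rw [Finset.sum_comm]

end Vale.Agent.P125.Poly
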