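import Vale.Agent.P125.P58.Defs58

set_option linter.unusedSectionVars false
set_option linter.unusedVariables false

namespace Vale.Agent.P125.Poly

open scoped BigOperators
open Vale.Agent.P125.Dich

/-- TRIV1: `E_z |F_k(Z_rho) - F_k(z)|` is at most the sum of `P^i lbar (z)`, `i < rho`. -/
theorem stTriv1_69 (hs : StSmall) : StTriv1 := by
  intro S _ _ μ P hc hL n f k ρ z
  obtain ⟨_, _, _, _, _, _, _, hF, _, _⟩ := hs S μ P hc hL n f
  induction ρ with
  | zero =>
    have h0 : Ak P f 0 k z = op P 0 (fun y => |F f k y - F f k z|) z := rfl
    rw [h0, hL.op_zero]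
    simp
  | succ ρ ih =>
    rw [Finset.sum_range_succ]
    have h1 : Ak P f (ρ + 1) k z ≤ Ak P f ρ k z + op P ρ (lbar P f) z := by
      unfold Ak op lbar
      have e : ∀ y, (P ^ (ρ + 1)) z y = ∑ u, (P ^ ρ) z u * P u y := by
        intro y
        rw [hL.pw_add ρ 1 z y]
        simp [pow_one]
      calc ∑ y, (P ^ (ρ + 1)) z y * |F f k y - F f k z|
          = ∑ y, ∑ u, (P ^ ρ) z u * P u y * |F f k y - F f k z| := by
            refine Finset.sum_congr rfl fun y _ => ?_
            rw [e y, Finset.sum_mul]
        _ = ∑ u, ∑ y, (P ^ ρ) z u * P u y * |F f k y - F f k z| := Finset.sum_comm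
        _ ≤ ∑ u, ((P ^ ρ) z u * |F f k u - F f k z|
              + (P ^ ρ) z u * ∑ y, P u y * ell f u y) := by
            refine Finset.sum_le_sum fun u _ => ?_
            have hP1 : ∑ y, P u y = 1 := hc.2.2.2.1 u
            have hPn : ∀ y, 0 ≤ P u y := fun y => hc.2.2.1 u y
            have ha := hL.pw_nonneg ρ z u
            have hin : ∑ y, P u y * |F f k y - F f k z|
                ≤ |F f k u - F f k z| + ∑ y, P u y * ell f u y := by
              calc ∑ y, P u y * |F f k y - F f k z|
                  ≤ ∑ y, (P u y * |F f k u - F f k z| + P u y * ell f u y) := by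
                    refine Finset.sum_le_sum fun y _ => ?_
                    rw [← mul_add]
                    refine mul_le_mul_of_nonneg_left ?_ (hPn y)
                    have t1 : |F f k y - F f k z|
                        ≤ |F f k y - F f k u| + |F f k u - F f k z| := abs_sub_le _ _ _
                    have t2 := hF k u y
                    linarith
                _ = |F f k u - F f k z| + ∑ y, P u y * ell f u y := by
                    rw [Finset.sum_add_distrib, ← Finset.sum_mul, hP1, one_mul]
            calc ∑ y, (P ^ ρ) z u * P u y * |F f k y - F f k z|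
                = (P ^ ρ) z u * ∑ y, P u y * |F f k y - F f k z| := by
                  rw [Finset.mul_sum]
                  refine Finset.sum_congr rfl fun y _ => by ring
              _ ≤ (P ^ ρ) z u * (|F f k u - F f k z| + ∑ y, P u y * ell f u y) :=
                  mul_le_mul_of_nonneg_left hin ha
              _ = (P ^ ρ) z u * |F f k u - F f k z|
                    + (P ^ ρ) z u * ∑ y, P u y * ell f u y := by ring
        _ = ∑ u, (P ^ ρ) z u * |F f k u - F f k z|
              + ∑ u, (P ^ ρ) z u * ∑ y, P u y * ell f u y := Finset.sum_add_distrib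
    linarith

end Vale.Agent.P125.Poly
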