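import Mathlib
import Vale.Agent.P125.P58.Defs58

/-!
# P125 Poly, TRIV2 (helper85): second moment of `F_k` along `τ` steps is at most
`τ * ∑_{i<τ} P^i l2`.
-/

namespace Vale.Agent.P125.Poly

open scoped BigOperators
open Vale.Agent.P125.Dich

theorem stTriv2_85 (hs : StSmall) : StTriv2 := by
  intro S _ _ μ P hc hL n f k τ b
  obtain ⟨-, -, -, -, -, -, -, hF, -, -⟩ := hs S μ P hc hL n f
  have hP : ∀ x y, 0 ≤ P x y := fun x y => by simpa using hL.pw_nonneg 1 x y
  have hrow : ∀ u, ∑ y, P u y = 1 := fun u => by simpa using hL.pw_sum 1 u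
  have hstep : ∀ u, ∑ y, P u y * (F f k y - F f k u) ^ 2 ≤ l2 P f u := by
    intro u
    unfold l2
    apply Finset.sum_le_sum
    intro y _
    apply mul_le_mul_of_nonneg_left _ (hP u y)
    have h := hF k u y
    exact sq_le_sq' (abs_le.mp h).1 (abs_le.mp h).2
  induction τ with
  | zero => simp [Matrix.one_apply]
  | succ τ ih =>
    have hexp : ∑ y, (P ^ (τ + 1)) b y * (F f k y - F f k b) ^ 2
        = ∑ u, (P ^ τ) b u * ∑ y, P u y * (F f k y - F f k b) ^ 2 := by
      simp_rw [hL.pw_add τ 1, pow_one, Finset.sum_mul, Finset.mul_sum]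
      rw [Finset.sum_comm]
      apply Finset.sum_congr rfl; intro u _
      apply Finset.sum_congr rfl; intro y _; ring
    rcases Nat.eq_zero_or_pos τ with h0 | hpos
    · subst h0
      have h1 := hstep b
      have h2 : op P 0 (l2 P f) b = l2 P f b := by rw [hL.op_zero]
      simp only [zero_add, pow_one, Finset.range_one, Finset.sum_singleton, Nat.cast_one, one_mul]
      rw [h2]
      exact h1
    · have hτ : (0:ℝ) < τ := by exact_mod_cast hpos
      have hpt : ∀ u, (τ:ℝ) * ∑ y, P u y * (F f k y - F f k b) ^ 2 ≤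
          (τ + 1) * (F f k u - F f k b) ^ 2 + τ * (τ + 1) * l2 P f u := by
        intro u
        have h1 : (τ:ℝ) * ∑ y, P u y * (F f k y - F f k b) ^ 2 ≤
            ∑ y, P u y * ((τ + 1) * (F f k u - F f k b) ^ 2
              + τ * (τ + 1) * (F f k y - F f k u) ^ 2) := by
          rw [Finset.mul_sum]
          apply Finset.sum_le_sum
          intro y _
          have h : (τ:ℝ) * (F f k y - F f k b) ^ 2 ≤ (τ + 1) * (F f k u - F f k b) ^ 2
              + τ * (τ + 1) * (F f k y - F f k u) ^ 2 := by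
            nlinarith [sq_nonneg ((F f k u - F f k b) - τ * (F f k y - F f k u))]
          calc (τ:ℝ) * (P u y * (F f k y - F f k b) ^ 2)
              = P u y * (τ * (F f k y - F f k b) ^ 2) := by ring
            _ ≤ _ := mul_le_mul_of_nonneg_left h (hP u y)
        have h2 : ∑ y, P u y * ((τ + 1) * (F f k u - F f k b) ^ 2
              + τ * (τ + 1) * (F f k y - F f k u) ^ 2)
            = (τ + 1) * (F f k u - F f k b) ^ 2 * ∑ y, P u y
              + τ * (τ + 1) * ∑ y, P u y * (F f k y - F f k u) ^ 2 := by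
          rw [Finset.mul_sum, Finset.mul_sum, ← Finset.sum_add_distrib]
          apply Finset.sum_congr rfl; intro y _; ring
        rw [h2, hrow u, mul_one] at h1
        have h3 : (τ:ℝ) * (τ + 1) * ∑ y, P u y * (F f k y - F f k u) ^ 2
            ≤ τ * (τ + 1) * l2 P f u :=
          mul_le_mul_of_nonneg_left (hstep u) (by positivity)
        linarith
      have hmain : (τ:ℝ) * ∑ y, (P ^ (τ + 1)) b y * (F f k y - F f k b) ^ 2 ≤
          (τ + 1) * ∑ y, (P ^ τ) b y * (F f k y - F f k b) ^ 2
            + τ * (τ + 1) * op P τ (l2 P f) b := by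
        rw [hexp]
        unfold op
        rw [Finset.mul_sum, Finset.mul_sum, Finset.mul_sum, ← Finset.sum_add_distrib]
        apply Finset.sum_le_sum
        intro u _
        have h := mul_le_mul_of_nonneg_left (hpt u) (hL.pw_nonneg τ b u)
        calc (τ:ℝ) * ((P ^ τ) b u * ∑ y, P u y * (F f k y - F f k b) ^ 2)
            = (P ^ τ) b u * (τ * ∑ y, P u y * (F f k y - F f k b) ^ 2) := by ring
          _ ≤ _ := h
          _ = _ := by ring
      rw [Finset.sum_range_succ]
      push_cast
      have h4 : ((τ:ℝ) + 1) * ∑ y, (P ^ τ) b y * (F f k y - F f k b) ^ 2 ≤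
          (τ + 1) * (τ * ∑ i ∈ Finset.range τ, op P i (l2 P f) b) :=
        mul_le_mul_of_nonneg_left ih (by positivity)
      apply le_of_mul_le_mul_left _ hτ
      calc (τ:ℝ) * ∑ y, (P ^ (τ + 1)) b y * (F f k y - F f k b) ^ 2
          ≤ _ := hmain
        _ ≤ (τ + 1) * (τ * ∑ i ∈ Finset.range τ, op P i (l2 P f) b)
            + τ * (τ + 1) * op P τ (l2 P f) b := by linarith
        _ = _ := by ring

end Vale.Agent.P125.Poly
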