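import Mathlib
import Vale.Agent.P125.P58.Defs58

set_option linter.unusedSectionVars false
set_option linter.unusedVariables false

/-!
# P125 Poly: Steps 1+2 (`StTwo`) from `StOwn`, `StTel`, `StCol`, `StSmall` (helper77)
-/

namespace Vale.Agent.P125.Poly

open scoped BigOperators
open Vale.Agent.P125.Dich

theorem stTwo_77 (h1 : StOwn) (h2 : StTel) (h3 : StCol) (hs : StSmall) : StTwo := by
  intro S _ _ μ P hc L n f κ t
  have hF : ∀ (k : Fin n) (x y : S),
      (∑ i, if i ≤ k then (f y i - f x i) else 0) = F f k y - F f k x := by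
    intro k x y
    unfold F
    rw [← Finset.sum_sub_distrib]
    refine Finset.sum_congr rfl fun i _ => ?_
    split_ifs <;> simp
  have hpt : ∀ (k0 : Fin n) (x y : S), (F f k0 y - F f k0 x) ^ 2 ≤
      2 * ∑ k, w f x y k * |F f k y - F f k x| := by
    intro k0 x y
    have := h1 n (fun i => f y i - f x i) (fun k => w f x y k) (fun k => le_refl _) k0
    simp only [hF] at this
    exact this
  have hw : ∀ x y, 0 ≤ μ x * (P ^ t) x y := fun x y =>
    mul_nonneg (L.mu_nonneg x) (L.pw_nonneg t x y)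
  -- step 1
  have s1 : ∑ x, ∑ y, μ x * (P ^ t) x y * (F f (κ x y) y - F f (κ x y) x) ^ 2 ≤
      2 * ∑ k, ∑ x, ∑ y, μ x * (P ^ t) x y * (|f y k - f x k| * |F f k y - F f k x|) := by
    have e : 2 * ∑ k, ∑ x, ∑ y, μ x * (P ^ t) x y * (|f y k - f x k| * |F f k y - F f k x|) =
        ∑ x, ∑ y, μ x * (P ^ t) x y * (2 * ∑ k, w f x y k * |F f k y - F f k x|) := by
      rw [Finset.sum_comm, Finset.mul_sum]
      refine Finset.sum_congr rfl fun x _ => ?_
      rw [Finset.sum_comm, Finset.mul_sum]
      refine Finset.sum_congr rfl fun y _ => ?_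
      rw [← Finset.mul_sum]
      unfold w
      ring
    rw [e]
    exact Finset.sum_le_sum fun x _ => Finset.sum_le_sum fun y _ =>
      mul_le_mul_of_nonneg_left (hpt _ x y) (hw x y)
  -- step 2
  have s2 : ∀ k : Fin n,
      ∑ x, ∑ y, μ x * (P ^ t) x y * (|f y k - f x k| * |F f k y - F f k x|) ≤
      ∑ r ∈ Finset.range t, (Qk μ P f (t - 1 - r) k +
        (∑ a, ∑ b, μ a * P a b * (w f a b k * ell f a b)) + Qk μ P f r k) := by
    intro k
    refine (h2 S μ P hc L (fun x => f x k) (fun x y => |F f k y - F f k x|)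
      (fun x y => abs_nonneg _) t).trans ?_
    exact Finset.sum_le_sum fun r _ => h3 S μ P hc L n f k r (t - 1 - r)
  have hUe : ∑ k, (∑ a, ∑ b, μ a * P a b * (w f a b k * ell f a b)) = U μ P f := by
    unfold U
    rw [Finset.sum_comm]
    refine Finset.sum_congr rfl fun a _ => ?_
    rw [Finset.sum_comm]
    refine Finset.sum_congr rfl fun b _ => ?_
    rw [← Finset.mul_sum, ← Finset.sum_mul]
    have : ∑ k, w f a b k = ell f a b := rfl
    rw [this]; ring
  have s3 : ∑ k, ∑ r ∈ Finset.range t, (Qk μ P f (t - 1 - r) k +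
        (∑ a, ∑ b, μ a * P a b * (w f a b k * ell f a b)) + Qk μ P f r k) =
      t * U μ P f + ∑ r ∈ Finset.range t, (Qsum μ P f (t - 1 - r) + Qsum μ P f r) := by
    rw [Finset.sum_comm]
    have : ∀ r ∈ Finset.range t, ∑ k, (Qk μ P f (t - 1 - r) k +
        (∑ a, ∑ b, μ a * P a b * (w f a b k * ell f a b)) + Qk μ P f r k) =
        U μ P f + (Qsum μ P f (t - 1 - r) + Qsum μ P f r) := by
      intro r _
      rw [Finset.sum_add_distrib, Finset.sum_add_distrib, hUe]
      unfold Qsum
      ring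
    rw [Finset.sum_congr rfl this, Finset.sum_add_distrib, Finset.sum_const, Finset.card_range,
      nsmul_eq_mul]
  have s4 := Finset.sum_le_sum (s := Finset.univ) fun k _ => s2 k
  rw [s3] at s4
  linarith

end Vale.Agent.P125.Poly
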