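import Vale.Agent.P125.P58.Defs58

set_option linter.unusedSectionVars false
set_option linter.unusedVariables false

/-! # P125 Poly: from the selector form (`StCore`) to the plain statement -/

namespace Vale.Agent.P125.Poly

open scoped BigOperators
open Vale.Agent.P125.Dich

/-- the difference of the running sums as one sum -/
lemma F_sub_75 {S : Type} {n : ℕ} (f : S → Fin n → ℝ) (k : Fin n) (i j : S) :
    F f k j - F f k i = ∑ l : Fin n, if l ≤ k then f j l - f i l else 0 := by
  unfold F
  rw [← Finset.sum_sub_distrib]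
  refine Finset.sum_congr rfl fun l _ => ?_
  split_ifs <;> simp

/-- for every pair of states a selector realises (or dominates) the maximum -/
lemma exists_sel_75 {S : Type} {n : ℕ} (f : S → Fin (n + 1) → ℝ) (i j : S) :
    ∃ κ : Fin (n + 1),
      (Finset.univ.sup' Finset.univ_nonempty (fun k : Fin (n + 1 + 1) =>
        |∑ l : Fin (n + 1), if l.val < k.val then f j l - f i l else 0|)) ^ 2 ≤
      (F f κ j - F f κ i) ^ 2 := by
  obtain ⟨k, _, hk⟩ := Finset.exists_mem_eq_sup' (Finset.univ_nonempty (α := Fin (n + 1 + 1)))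
    (fun k : Fin (n + 1 + 1) => |∑ l : Fin (n + 1), if l.val < k.val then f j l - f i l else 0|)
  rw [hk]
  by_cases h0 : k.val = 0
  · refine ⟨0, ?_⟩
    have : (∑ l : Fin (n + 1), if l.val < k.val then f j l - f i l else 0) = 0 := by
      refine Finset.sum_eq_zero fun l _ => ?_
      rw [if_neg (by omega)]
    simp only [this, abs_zero]
    have := sq_nonneg (F f 0 j - F f 0 i)
    simpa using this
  · have hk1 : k.val - 1 < n + 1 := by
      have := k.isLt
      omega
    refine ⟨⟨k.val - 1, hk1⟩, ?_⟩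
    rw [F_sub_75, sq_abs]
    refine le_of_eq ?_
    congr 1
    refine Finset.sum_congr rfl fun l _ => ?_
    have : (l.val < k.val) ↔ l ≤ (⟨k.val - 1, hk1⟩ : Fin (n + 1)) := by
      rw [Fin.le_def]
      simp only
      omega
    by_cases hl : l.val < k.val
    · rw [if_pos hl, if_pos (this.mp hl)]
    · rw [if_neg hl, if_neg (fun hh => hl (this.mpr hh))]

/-- WRAP: the plain statement -/
theorem stWrap_75 (h : StCore) : ∀ t : ℕ, 1 ≤ t →
    ∀ (n : ℕ) (S : Type) [Fintype S] [DecidableEq S] (μ : S → ℝ) (P : Matrix S S ℝ),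
      (∀ i, 0 ≤ μ i) → ∑ i, μ i = 1 → (∀ i j, 0 ≤ P i j) → (∀ i, ∑ j, P i j = 1) →
      (∀ i j, μ i * P i j = μ j * P j i) → ∀ f : S → Fin n → ℝ,
        ∑ i, ∑ j, μ i * (P ^ t) i j *
            (Finset.univ.sup' Finset.univ_nonempty (fun k : Fin (n + 1) =>
              |∑ l : Fin n, if l.val < k.val then f j l - f i l else 0|)) ^ 2 ≤
          24 * (t : ℝ) ^ (11 / 6 : ℝ) *
            ∑ i, ∑ j, μ i * P i j * (∑ l : Fin n, |f j l - f i l|) ^ 2 := by
  intro t ht n S _ _ μ P h0 h1 h2 h3 h4 f
  have hc : IsChain μ P := ⟨h0, h1, h2, h3, h4⟩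
  have hct : IsChain μ (P ^ t) := isChain_pow hc t
  cases n with
  | zero =>
    have hR : 0 ≤ 24 * (t : ℝ) ^ (11 / 6 : ℝ) *
        ∑ i, ∑ j, μ i * P i j * (∑ l : Fin 0, |f j l - f i l|) ^ 2 := by
      refine mul_nonneg (mul_nonneg (by norm_num) (Real.rpow_nonneg (Nat.cast_nonneg t) _)) ?_
      exact Finset.sum_nonneg fun i _ => Finset.sum_nonneg fun j _ =>
        mul_nonneg (mul_nonneg (h0 i) (h2 i j)) (sq_nonneg _)
    refine le_trans (le_of_eq ?_) hR
    refine Finset.sum_eq_zero fun i _ => Finset.sum_eq_zero fun j _ => ?_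
    have : (Finset.univ.sup' Finset.univ_nonempty (fun k : Fin (0 + 1) =>
        |∑ l : Fin 0, if l.val < k.val then f j l - f i l else 0|)) = 0 := by
      apply le_antisymm
      · refine Finset.sup'_le _ _ fun k _ => ?_
        simp
      · refine le_trans ?_ (Finset.le_sup' _ (Finset.mem_univ (0 : Fin (0 + 1))))
        simp
    rw [this]
    simp
  | succ n =>
    choose κ hκ using fun i j => exists_sel_75 f i j
    have key := h S μ P hc (n + 1) f κ t ht
    refine le_trans ?_ key
    refine Finset.sum_le_sum fun i _ => Finset.sum_le_sum fun j _ => ?_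
    exact mul_le_mul_of_nonneg_left (hκ i j) (mul_nonneg (h0 i) (hct.2.2.1 i j))

end Vale.Agent.P125.Poly
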