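import Vale.Agent.P125.P58.Defs58
import Vale.Agent.P125.P58.Lib_75
import Vale.Agent.P125.P58.Own_33
import Vale.Agent.P125.P58.OwnT_27
import Vale.Agent.P125.P58.Tel_59
import Vale.Agent.P125.P58.Small_93
import Vale.Agent.P125.P58.Two_77
import Vale.Agent.P125.P58.Triv2_85
import Vale.Agent.P125.P58.Sqrt_89
import Vale.Agent.P125.P58.Blk_89
import Vale.Agent.P125.P58.Dual_67
import Vale.Agent.P125.P58.Down_73
import Vale.Agent.P125.P58.Back_88
import Vale.Agent.P125.P58.En_27
import Vale.Agent.P125.P58.BB_38
import Vale.Agent.P125.P58.Xi_87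
import Vale.Agent.P125.P58.R_14
import Vale.Agent.P125.P58.Q_64
import Vale.Agent.P125.P58.Glue_77
import Vale.Agent.P125.P58.Wrap_75
import Vale.Agent.P125.P58.Col_59
import Vale.Agent.P125.P58.Triv1_69
import Vale.Agent.P125.P58.Rem_92

namespace Vale.Agent.P125.Poly

/-- the polynomial rate in selector form -/
theorem core58 : StCore := by
  have lib : StLib := stLib_75
  have own : StOwn := stOwn_33
  have ownT : StOwnT := stOwnT_27 own
  have tel : StTel := stTel_59
  have small : StSmall := stSmall_93
  have col : StCol := stCol_59 small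
  have triv1 : StTriv1 := stTriv1_69 small
  have rem : StRem := stRem_92 small triv1
  have two : StTwo := stTwo_77 own tel col small
  have triv2 : StTriv2 := stTriv2_85 small
  have sq : StSqrt := stSqrt_89
  have blk : StBlk := stBlk_89 lib small triv2 sq
  have dual : StDual := stDual_67
  have down : StDown := stDown_73 ownT small
  have back : StBack := stBack_88 small
  have en : StEn := stEn_27 small
  have bb : StBB := stBB_38 small
  have xi : StXi := stXi_87 small en bb
  have r : StR := stR_14 small dual down back xi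
  have q : StQ := stQ_64 small rem blk r
  exact stCore_77 lib two q small

/-- the polynomial rate, plain statement: the summing operators have Markov type exponent
`11/6 < 2` (second moments), uniformly in the dimension -/
theorem plain58 : ∀ t : ℕ, 1 ≤ t →
    ∀ (n : ℕ) (S : Type) [Fintype S] [DecidableEq S] (μ : S → ℝ) (P : Matrix S S ℝ),
      (∀ i, 0 ≤ μ i) → ∑ i, μ i = 1 → (∀ i j, 0 ≤ P i j) → (∀ i, ∑ j, P i j = 1) →
      (∀ i j, μ i * P i j = μ j * P j i) → ∀ f : S → Fin n → ℝ,
        ∑ i, ∑ j, μ i * (P ^ t) i j *
            (Finset.univ.sup' Finset.univ_nonempty (fun k : Fin (n + 1) =>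
              |∑ l : Fin n, if l.val < k.val then f j l - f i l else 0|)) ^ 2 ≤
          24 * (t : ℝ) ^ (11 / 6 : ℝ) *
            ∑ i, ∑ j, μ i * P i j * (∑ l : Fin n, |f j l - f i l|) ^ 2 :=
  stWrap_75 core58

end Vale.Agent.P125.Poly
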